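import Vale.Agent.P093.Stmt

/-! P093C: mean cube dimension. -/

open Filter
open scoped ENNReal

noncomputable section

namespace Vale.Agent.P093

variable {X : Type} [TopologicalSpace X]

/-- The largest dimension of a singular cube such that no member of `𝒰` meets two opposite
faces. -/
def cubeOrd (𝒰 : Set (Set X)) : ℝ≥0∞ :=
  ⨆ (m : ℕ) (φ : C(Fin m → unitInterval, X))
    (_ : ∀ U ∈ 𝒰, ∀ i s t, s i = 0 → t i = 1 → φ s ∈ U → φ t ∉ U), (m : ℝ≥0∞)

/-- Mean cube dimension. -/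
def cdim (h : X ≃ₜ X) : ℝ≥0∞ :=
  ⨆ (𝒰 : Set (Set X)) (_ : IsCover 𝒰),
    limsup (fun N : ℕ => cubeOrd (joinCov h 𝒰 N) / N) atTop

end Vale.Agent.P093
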