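import Vale.Agent.P093H.Defs
import Vale.Agent.P093C.Stmt

/-! P093C: definitions used in the proof (no task here). -/

open Filter Topology Set

noncomputable section

namespace Vale.Agent.P093

/-- The cube. -/
abbrev Cb (m : ℕ) : Type := Fin m → unitInterval

/-- The place `s` in the block `j`. -/
def pos {M q : ℕ} (j : Fin M) (s : Fin q) : ℤ := (q : ℤ) * (j : ℕ) + (s : ℕ)

/-- Truncation to `[0, 1]`. -/
def cl01 (t : ℝ) : ℝ := max 0 (min t 1)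

/-- Boundary conditions of Poincare-Miranda type. -/
structure Mir {m : ℕ} {Ω : Type} [TopologicalSpace Ω] (R : Cb m × Ω → Fin m → ℝ) : Prop where
  cont : Continuous R
  bd : ∀ z i, |R z i| ≤ 1
  lo : ∀ z i, z.1 i = 0 → R z i ≤ 0
  hi : ∀ z i, z.1 i = 1 → 0 ≤ R z i

variable {X : Type} [TopologicalSpace X]

/-- A bump function on the base of an open tower which fills most of every orbit. -/
structure Urp (h : X ≃ₜ X) (q : ℕ) (ε : ℝ) (g : X → ℝ) : Prop where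
  cont : Continuous g
  nonneg : ∀ x, 0 ≤ g x
  le_one : ∀ x, g x ≤ 1
  disj : ∀ x, g x ≠ 0 → ∀ i : ℕ, 0 < i → i < q → g ((h ^ (i : ℤ)) x) = 0
  fill : ∃ C : ℝ, ∀ x (N : ℕ), (1 - ε) * N ≤ q * cnt h {x | g x = 1} x N + C

/-- A coloured family of bump functions subordinate to a cover. -/
structure Col (𝒲 : Set (Set X)) {Λ I : Type} (col : Λ → I) (G : Λ → X → ℝ) : Prop where
  cont : ∀ a, Continuous (G a)
  nonneg : ∀ a x, 0 ≤ G a x
  le_one : ∀ a x, G a x ≤ 1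
  sep : ∀ a b, a ≠ b → col a = col b → ∀ x, G a x = 0 ∨ G b x = 0
  one : ∀ x, ∃ a, G a x = 1
  sub : ∀ a, ∃ U ∈ 𝒲, ∀ x, G a x ≠ 0 → x ∈ U

/-- Products of spheres along long orbit segments, up to an essential correspondence. -/
structure MarkC (h : X ≃ₜ X) (q p : ℕ) (ε : ℝ) {L : Type} (g : X → ℝ)
    (ρ : L → X → Fin 3 → ℝ) : Prop where
  urp : Urp h q ε g
  cont : ∀ i, Continuous (ρ i)
  ball : ∀ i x, ∑ c, ρ i x c ^ 2 ≤ 1
  cube : ∀ C : ℕ, ∃ (M m k o : ℕ) (φ : Cb m → X) (R : Cb m × (Fin M × L → S2) → Fin m → ℝ),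
    Continuous φ ∧ Mir R ∧
    (∀ τ ω, R (τ, ω) = 0 → ∃ Bad : Finset (Fin M × L), Bad.card ≤ k ∧ ∀ γ ∉ Bad, ∀ s : Fin q,
      g ((h ^ pos γ.1 s) (φ τ)) ≠ 0 → ρ γ.2 ((h ^ pos γ.1 s) (φ τ)) = (ω γ).1) ∧
    (∀ τ, ∃ Off : Finset (Fin M), Off.card ≤ o ∧
      ∀ j ∉ Off, ∃ s : Fin q, g ((h ^ pos j s) (φ τ)) = 1) ∧
    4 * k + C + o * p < M * p

/-- The time at which the marker at the place `s` becomes active. -/
def sw (h : X ≃ₜ X) (w : X → ℝ) (P : ℕ) (x : X) (s : ℤ) : ℝ := s + P * (1 - w ((h ^ s) x))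

/-- The bump function of the tower. -/
def urpG (h : X ≃ₜ X) (w : X → ℝ) (P Q' q : ℕ) (x : X) : ℝ :=
  ∑ n ∈ (Finset.range Q').filter (q ∣ ·), cl01 (-sw h w P x (-(n : ℤ))) *
    ∏ s ∈ Finset.Ioo (-(n : ℤ)) q, cl01 (sw h w P x s - q)

end Vale.Agent.P093
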