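import Vale.Agent.P093.Cfc
import Vale.Agent.P093C.Defs

/-! P093C Cf (TASK). Order and trace estimates. Helper names start with `cfd_`.
`rt_le`: `a * e = a` by `star`; the set of `x` with `e * x = x` and `x * e = x` is a closed non-unital star subalgebra containing `a`, hence `rt a m` (`CFC.nnrpow_eq_rpow`, `CFC.nnrpow_def`, `cfcₙ_mem`, or `CFC.rpow_def`, `cfc_eq_cfcₙ`-type lemma); `r = e * r * e ≤ e * 1 * e ≤ e` (`conjugate_le_conjugate`, `le_rt`, `CStarAlgebra.mul_self_le`-type lemma: `e - e * e = sqrt e * (1 - e) * sqrt e`, or `Commute.mul_nonneg`).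
`dimFn_le`: `limsup_le_of_le` with `tr_mono`, coboundedness from the lower bound `0`. `conj_unit`: `conjugate_nonneg`, `conjugate_le_conjugate`.
`trace_pos`, `trace_sum`: see `trace_ge` in `Vale/Agent/P093H/Core.lean`. `urp_tr_ge`: `cnt ≤ ∑ j ∈ range N, g (h ^ j x)`. `urp_tr_le`: at most one of the terms `e (h ^ j x)`, `j < q`, is nonzero (`Urp.disj`). -/

open Filter Topology Set
open scoped ComplexOrder

noncomputable section

namespace Vale.Agent.P093

section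

variable {B : Type} [CStarAlgebra B] [PartialOrder B] [StarOrderedRing B] {a e c : B}

/-- The elements fixed by `e` on both sides. -/
def cfd_S (he : star e = e) : NonUnitalStarSubalgebra ℝ B where
  carrier := {x | e * x = x ∧ x * e = x}
  add_mem' hx hy := ⟨by rw [mul_add, hx.1, hy.1], by rw [add_mul, hx.2, hy.2]⟩
  zero_mem' := ⟨mul_zero e, zero_mul e⟩
  mul_mem' hx hy := ⟨by rw [← mul_assoc, hx.1], by rw [mul_assoc, hy.2]⟩
  smul_mem' c x hx := ⟨by rw [mul_smul_comm, hx.1], by rw [smul_mul_assoc, hx.2]⟩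
  star_mem' hx := ⟨by rw [← he, ← star_mul, hx.2], by rw [← he, ← star_mul, hx.1]⟩

theorem rt_le (h0 : 0 ≤ a) (h1 : a ≤ 1) (e0 : 0 ≤ e) (e1 : e ≤ 1) (hea : e * a = a) (m : ℕ) :
    rt a m ≤ e := by
  have hs : IsSelfAdjoint a := h0.isSelfAdjoint
  have he : star e = e := e0.isSelfAdjoint
  have hae : a * e = a := by
    have h2 := congrArg star hea
    rwa [star_mul, he, hs.star_eq] at h2
  have hm : 0 < ((m : ℝ) + 1)⁻¹ := by positivity
  have hcl : IsClosed (cfd_S he : Set B) :=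
    (isClosed_eq (continuous_const.mul continuous_id) continuous_id).inter
      (isClosed_eq (continuous_id.mul continuous_const) continuous_id)
  have hr : rt a m ∈ cfd_S he := by
    rw [rt, CFC.rpow_eq_cfc_real h0, ← cfcₙ_eq_cfc (Real.continuous_rpow_const hm.le).continuousOn
      (Real.zero_rpow hm.ne')]
    exact cfcₙ_mem _ ⟨hea, hae⟩
  have h2 := star_left_conjugate_le_conjugate (le_rt h0 h1 m).2 e
  rw [he, hr.1, hr.2, mul_one] at h2
  have h3 := ((Commute.one_right e).sub_right (Commute.refl e)).mul_nonneg e0 (sub_nonneg.2 e1)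
  rw [mul_sub, mul_one, sub_nonneg] at h3
  exact h2.trans h3

theorem conj_unit (h0 : 0 ≤ a) (h1 : a ≤ 1) (hc : star c * c ≤ 1) :
    0 ≤ star c * a * c ∧ star c * a * c ≤ 1 := by
  refine ⟨star_left_conjugate_nonneg h0 c, (star_left_conjugate_le_conjugate h1 c).trans ?_⟩
  rwa [mul_one]

end

theorem dimFn_le {A : Type} [CStarAlgebra A] [PartialOrder A] [StarOrderedRing A] {n : ℕ}
    {τ : A →ₗ[ℂ] ℂ} {a e : CStarMatrix (Fin n) (Fin n) A} (hτ : IsTracial τ) (h0 : 0 ≤ a)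
    (h1 : a ≤ 1) (e0 : 0 ≤ e) (e1 : e ≤ 1) (hea : e * a = a) :
    dimFn τ a ≤ (τ (∑ i, e i i)).re := by
  unfold dimFn
  exact limsup_le_of_le (isCoboundedUnder_le_of_le _ fun m => tr_mono hτ (le_rt h0 h1 m).1)
    (Eventually.of_forall fun m => tr_mono hτ (rt_le h0 h1 e0 e1 hea m))

variable {X : Type} [TopologicalSpace X] {h : X ≃ₜ X} {q : ℕ} {ε : ℝ} {g : X → ℝ}

theorem cfd_avg {u : X → ℝ} {f : C(X, ℂ)} (hf : ∀ x, f x = u x) (μ : C(X, ℂ) →ₗ[ℂ] ℂ)
    (μ1 : μ 1 = 1) (hμ : ∀ f, μ (f.comp ⟨h, h.continuous⟩) = μ f)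
    (μ0 : ∀ f, 0 ≤ μ (star f * f)) (N : ℕ) (a b : ℝ)
    (H : ∀ x, 0 ≤ a * ∑ j ∈ Finset.range N, u ((h ^ (j : ℤ)) x) + b) :
    0 ≤ a * (N * (μ f).re) + b := by
  let G : ℕ → C(X, ℂ) := fun j => f.comp ⟨(h ^ (j : ℤ) : X ≃ₜ X), Homeomorph.continuous _⟩
  have h1 : ∀ j, μ (G j) = μ f := fun j => by
    induction j with
    | zero => exact congrArg μ (ContinuousMap.ext fun x => by simp [G])
    | succ j ih =>
      rw [← ih, ← hμ (G j)]
      exact congrArg μ (ContinuousMap.ext fun x => by simp [G, pow_succ])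
  let F : C(X, ℂ) := (a : ℂ) • ∑ j ∈ Finset.range N, G j + (b : ℂ) • 1
  have a1 : ∀ x, F x = ((a * ∑ j ∈ Finset.range N, u ((h ^ (j : ℤ)) x) + b : ℝ) : ℂ) := fun x => by
    simp only [F, ContinuousMap.add_apply, ContinuousMap.coe_sum, Finset.sum_apply,
      ContinuousMap.smul_apply, ContinuousMap.one_apply, smul_eq_mul, mul_one]
    rw [Complex.ofReal_add, Complex.ofReal_mul, Complex.ofReal_sum,
      Finset.sum_congr rfl fun j _ => show G j x = u ((h ^ (j : ℤ)) x) from hf _]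
  let s : C(X, ℂ) := ⟨fun x => ((√((F x).re) : ℝ) : ℂ), by fun_prop⟩
  have a2 : star s * s = F := by
    ext x
    have a3 : 0 ≤ (F x).re := by
      rw [a1, Complex.ofReal_re]
      exact H x
    change star ((√((F x).re) : ℝ) : ℂ) * ((√((F x).re) : ℝ) : ℂ) = F x
    rw [Complex.star_def, Complex.conj_ofReal, ← Complex.ofReal_mul, Real.mul_self_sqrt a3, a1,
      Complex.ofReal_re]
  have a4 := (Complex.le_def.1 (μ0 s)).1
  rwa [a2, map_add, map_smul, map_sum, Finset.sum_congr rfl fun j _ => h1 j, Finset.sum_const,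
    Finset.card_range, map_smul, μ1, smul_eq_mul, smul_eq_mul, mul_one, nsmul_eq_mul,
    Complex.add_re, ← Complex.ofReal_natCast, Complex.re_ofReal_mul, Complex.re_ofReal_mul,
    Complex.ofReal_re, Complex.zero_re] at a4

theorem urp_tr_ge (hU : Urp h q ε g) {f : C(X, ℂ)} (hf : ∀ x, f x = g x)
    (μ : C(X, ℂ) →ₗ[ℂ] ℂ) (μ1 : μ 1 = 1) (hμ : ∀ f, μ (f.comp ⟨h, h.continuous⟩) = μ f)
    (μ0 : ∀ f, 0 ≤ μ (star f * f)) : 1 - ε ≤ q * (μ f).re := by
  classical
  obtain ⟨C, hC⟩ := hU.fill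
  have h2 : ∀ N : ℕ, 0 ≤ q * (N * (μ f).re) + (C - (1 - ε) * N) := fun N =>
    cfd_avg hf μ μ1 hμ μ0 N _ _ fun x => by
      have a1 : (cnt h {x | g x = 1} x N : ℝ) ≤ ∑ j ∈ Finset.range N, g ((h ^ (j : ℤ)) x) := by
        rw [cnt, Finset.card_filter, Nat.cast_sum]
        refine Finset.sum_le_sum fun j _ => ?_
        split_ifs with hj
        · rw [Nat.cast_one]
          exact Eq.ge hj
        · rw [Nat.cast_zero]
          exact hU.nonneg _
      linarith [hC x N, mul_le_mul_of_nonneg_left a1 (Nat.cast_nonneg q)]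
  by_contra hc
  obtain ⟨N, hN⟩ := exists_nat_gt (C / (1 - ε - q * (μ f).re))
  rw [div_lt_iff₀ (sub_pos.2 (not_le.1 hc))] at hN
  linarith [h2 N]

theorem urp_tr_le (hU : Urp h q ε g) {e : X → ℝ} (e1 : ∀ x, e x ≤ 1) (eg : ∀ x, g x = 0 → e x = 0)
    {f : C(X, ℂ)} (hf : ∀ x, f x = e x) (μ : C(X, ℂ) →ₗ[ℂ] ℂ) (μ1 : μ 1 = 1)
    (hμ : ∀ f, μ (f.comp ⟨h, h.continuous⟩) = μ f) (μ0 : ∀ f, 0 ≤ μ (star f * f)) :
    q * (μ f).re ≤ 1 := by
  have h2 := cfd_avg hf μ μ1 hμ μ0 q (-1) 1 fun x => by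
    have key : ∀ i j : ℕ, i < j → j < q → g ((h ^ (i : ℤ)) x) ≠ 0 → g ((h ^ (j : ℤ)) x) = 0 := by
      intro i j hij hj hi
      have h3 := hU.disj _ hi (j - i) (by omega) (by omega)
      rwa [← Homeomorph.mul_apply, ← zpow_add, Nat.cast_sub hij.le, sub_add_cancel] at h3
    have h4 : ∑ j ∈ Finset.range q, e ((h ^ (j : ℤ)) x) ≤ 1 := by
      by_cases h5 : ∃ i < q, g ((h ^ ((i : ℕ) : ℤ)) x) ≠ 0
      · obtain ⟨i, hi, hg⟩ := h5
        rw [Finset.sum_eq_single_of_mem i (Finset.mem_range.2 hi) fun j hj hji => eg _ ?_]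
        · exact e1 _
        · rcases lt_or_gt_of_ne hji with h6 | h6
          · by_contra h7
            exact hg (key j i h6 hi h7)
          · exact key i j h6 (Finset.mem_range.1 hj) hg
      · rw [Finset.sum_eq_zero fun j hj => eg _ ?_]
        · exact zero_le_one
        · by_contra h7
          exact h5 ⟨j, Finset.mem_range.1 hj, h7⟩
    linarith
  linarith

end Vale.Agent.P093
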