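import Vale.Agent.P093C.Defs

/-! P093C Col (TASK). Coloured refinements. Helper names start with `clr_`.
`join_cover`: finite (`Set.Finite.pi`-type lemma, image of the finite set of functions `Fin N → 𝒰`), open (`isOpen_iInter_of_finite`, `Continuous.iterate`), covering (choice).
`exists_col`: start as `exists_bumps` in `Vale/Agent/P093/MdA.lean`: a refinement `𝒱` with at most `n + 1` members through each point, functions `f V` with values in `[0, 1]`, zero off `V`, and at each point one of them is `1`. `Λ = {S : Finset 𝒱 // S.Nonempty ∧ S.card ≤ n + 1}`, `col S = card S - 1`, `G S x = ∏ V ∈ S, cl01 ((n + 1) * f V x) * ∏ V' ∉ S, cl01 ((n + 1) * (f V x - f V' x))`.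
`sep`: for `S ≠ S'` of the same cardinality take `V ∈ S \ S'`, `V' ∈ S' \ S`. `one`: at most `n` values `f V x` lie in `Ioo 0 1`, so one of the `n + 1` intervals `Ioo (a / (n + 1)) ((a + 1) / (n + 1))`, `a ≤ n`, contains no value (pigeonhole); `S = {V | (a + 1) / (n + 1) ≤ f V x}`. -/

open Filter Topology Set

noncomputable section

namespace Vale.Agent.P093

theorem clr_cont : Continuous cl01 := by
  unfold cl01
  fun_prop

theorem clr_nn (t : ℝ) : 0 ≤ cl01 t := le_max_left _ _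

theorem clr_le (t : ℝ) : cl01 t ≤ 1 := max_le zero_le_one (min_le_right _ _)

theorem clr_pos {t : ℝ} (h : cl01 t ≠ 0) : 0 < t := by
  by_contra hn
  exact h (max_eq_left ((min_le_left _ _).trans (not_lt.1 hn)))

theorem clr_one {t : ℝ} (h : 1 ≤ t) : cl01 t = 1 := by
  rw [cl01, min_eq_right h, max_eq_right zero_le_one]

/-- The bump function of a set of indices. -/
def clr_G {X ι : Type} [Fintype ι] [DecidableEq ι] (c : ℝ) (f : ι → X → ℝ) (S : Finset ι)
    (x : X) : ℝ :=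
  ∏ V ∈ S, (cl01 (c * f V x) * ∏ V' ∈ Sᶜ, cl01 (c * f V x - c * f V' x))

theorem clr_ne {X ι : Type} [Fintype ι] [DecidableEq ι] {c : ℝ} {f : ι → X → ℝ} {S : Finset ι}
    {x : X} (h : clr_G c f S x ≠ 0) {V : ι} (hV : V ∈ S) :
    f V x ≠ 0 ∧ ∀ V' ∉ S, c * f V' x < c * f V x := by
  have h1 := Finset.prod_ne_zero_iff.1 h V hV
  refine ⟨fun h0 => ?_, fun V' hV' => sub_pos.1 (clr_pos
    (Finset.prod_ne_zero_iff.1 (right_ne_zero_of_mul h1) V' (Finset.mem_compl.2 hV')))⟩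
  have h2 := clr_pos (left_ne_zero_of_mul h1)
  rw [h0, mul_zero] at h2
  exact lt_irrefl _ h2

theorem clr_gap {ι : Type} [Fintype ι] {n : ℕ} (y : ι → ℝ) {V₀ : ι} (h1 : y V₀ = n + 1)
    (h2 : {V | y V ≠ 0}.ncard ≤ n + 1) : ∃ a : ℕ, a ≤ n ∧ ∀ V, y V < a + 1 → y V ≤ a := by
  by_contra hn
  push Not at hn
  choose g hg1 hg2 using fun a : Fin (n + 1) => hn a (Nat.le_of_lt_succ a.2)
  have hi : Function.Injective g := fun a b h => by
    have k1 : ((a : ℕ) : ℝ) < (b : ℕ) + 1 := (hg2 a).trans (h ▸ hg1 b)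
    have k2 : ((b : ℕ) : ℝ) < (a : ℕ) + 1 := (hg2 b).trans (h ▸ hg1 a)
    have k3 : (a : ℕ) < b + 1 := by exact_mod_cast k1
    have k4 : (b : ℕ) < a + 1 := by exact_mod_cast k2
    exact Fin.ext (by omega)
  have h3 : V₀ ∉ range g := by
    rintro ⟨a, rfl⟩
    have k1 := hg1 a
    have k2 : ((a : ℕ) : ℝ) ≤ n := by exact_mod_cast Nat.le_of_lt_succ a.2
    linarith
  have h4 : insert V₀ (range g) ⊆ {V | y V ≠ 0} := by
    rintro _ (rfl | ⟨a, rfl⟩)
    · rw [mem_ofPred_eq, h1]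
      positivity
    · exact ((Nat.cast_nonneg _).trans_lt (hg2 a)).ne'
  have h5 := (ncard_le_ncard h4 (toFinite _)).trans h2
  rw [ncard_insert_of_notMem h3 (toFinite _), ncard_range_of_injective hi,
    Nat.card_eq_fintype_card, Fintype.card_fin] at h5
  omega

theorem clr_abs {X ι : Type} [TopologicalSpace X] [Fintype ι] {𝒲 : Set (Set X)} {n : ℕ}
    (f : ι → X → ℝ) (hc : ∀ V, Continuous (f V)) (hone : ∀ x, ∃ V, f V x = 1)
    (hn : ∀ x, {V | f V x ≠ 0}.ncard ≤ n + 1) (hs : ∀ V, ∃ U ∈ 𝒲, ∀ x, f V x ≠ 0 → x ∈ U) :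
    ∃ (Λ : Type) (_ : Fintype Λ) (col : Λ → Fin (n + 1)) (G : Λ → X → ℝ), Col 𝒲 col G := by
  classical
  refine ⟨{S : Finset ι // 0 < S.card ∧ S.card ≤ n + 1}, inferInstance,
    fun S => ⟨S.1.card - 1, by have := S.2; omega⟩, fun S => clr_G (n + 1) f S.1, fun S => ?_,
    fun S x => ?_, fun S x => ?_, fun S S' hne hcol x => ?_, fun x => ?_, fun S => ?_⟩
  · exact continuous_finsetProd _ fun V _ => (clr_cont.comp (continuous_const.mul (hc V))).mul
      (continuous_finsetProd _ fun V' _ => clr_cont.comp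
        ((continuous_const.mul (hc V)).sub (continuous_const.mul (hc V'))))
  · exact Finset.prod_nonneg fun V _ => mul_nonneg (clr_nn _)
      (Finset.prod_nonneg fun _ _ => clr_nn _)
  · exact Finset.prod_le_one
      (fun V _ => mul_nonneg (clr_nn _) (Finset.prod_nonneg fun _ _ => clr_nn _)) fun V _ =>
        mul_le_one₀ (clr_le _) (Finset.prod_nonneg fun _ _ => clr_nn _)
          (Finset.prod_le_one (fun _ _ => clr_nn _) fun _ _ => clr_le _)
  · have e : S.1.card = S'.1.card := by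
      have k1 : S.1.card - 1 = S'.1.card - 1 := congrArg Fin.val hcol
      have k2 := S.2.1
      have k3 := S'.2.1
      omega
    obtain ⟨V, v1, v2⟩ := Finset.not_subset.1 fun h : S.1 ⊆ S'.1 =>
      hne (Subtype.ext (Finset.eq_of_subset_of_card_le h e.ge))
    obtain ⟨V', v3, v4⟩ := Finset.not_subset.1 fun h : S'.1 ⊆ S.1 =>
      hne (Subtype.ext (Finset.eq_of_subset_of_card_le h e.le).symm)
    by_contra hx
    obtain ⟨x1, x2⟩ := not_or.1 hx
    exact lt_asymm ((clr_ne x1 v1).2 V' v4) ((clr_ne x2 v3).2 V v2)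
  · obtain ⟨V₀, h0⟩ := hone x
    have n0 : (0 : ℝ) < n + 1 := by positivity
    obtain ⟨a, ha, hg⟩ := clr_gap (fun V => ((n : ℝ) + 1) * f V x) (V₀ := V₀)
      (by rw [h0, mul_one]) (by simpa only [ne_eq, mul_eq_zero, n0.ne', false_or] using hn x)
    have a0 : (0 : ℝ) ≤ a := Nat.cast_nonneg a
    have a1 : (a : ℝ) ≤ n := by exact_mod_cast ha
    obtain ⟨S, hS⟩ : ∃ S : Finset ι, ∀ V, V ∈ S ↔ (a : ℝ) + 1 ≤ (n + 1) * f V x :=
      ⟨Finset.univ.filter fun V => (a : ℝ) + 1 ≤ (n + 1) * f V x, fun V => by simp⟩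
    refine ⟨⟨S, Finset.card_pos.2 ⟨V₀, (hS _).2 (by rw [h0]; linarith)⟩, ?_⟩,
      Finset.prod_eq_one fun V hV => ?_⟩
    · rw [← ncard_coe_finset]
      refine (ncard_le_ncard (fun V hV h1 => ?_) (toFinite _)).trans (hn x)
      have h2 := (hS V).1 hV
      rw [h1] at h2
      linarith
    · have h2 := (hS V).1 hV
      rw [clr_one (by linarith), one_mul]
      refine Finset.prod_eq_one fun V' hV' => clr_one ?_
      have h3 := hg V' (not_le.1 fun h => Finset.mem_compl.1 hV' ((hS V').2 h))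
      linarith
  · obtain ⟨V, hV⟩ := Finset.card_pos.1 S.2.1
    obtain ⟨U, hU, h1⟩ := hs V
    exact ⟨U, hU, fun x hx => h1 x (clr_ne hx hV).1⟩

theorem join_cover {X : Type} [TopologicalSpace X] (h : X ≃ₜ X) {𝒰 : Set (Set X)}
    (hU : IsCover 𝒰) (N : ℕ) : IsCover (joinCov h 𝒰 N) := by
  refine ⟨?_, ?_, eq_univ_of_forall fun x => ?_⟩
  · refine ((Finite.pi' fun _ : Fin N => hU.1).image
      fun c => ⋂ j : Fin N, h^[j] ⁻¹' c j).subset ?_
    rintro _ ⟨c, hc, rfl⟩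
    exact ⟨c, hc, rfl⟩
  · rintro _ ⟨c, hc, rfl⟩
    exact isOpen_iInter_of_finite fun j =>
      (hU.2.1 _ (hc j)).preimage (h.continuous.iterate j)
  · choose c hc hx using fun j : Fin N =>
      mem_sUnion.1 (hU.2.2.symm ▸ mem_univ (h^[j] x) : h^[j] x ∈ ⋃₀ 𝒰)
    exact ⟨_, ⟨c, hc, rfl⟩, mem_iInter.2 hx⟩

theorem exists_col {X : Type} [MetricSpace X] [CompactSpace X] {𝒲 : Set (Set X)}
    (hW : IsCover 𝒲) {n : ℕ} (hn : leastOrd 𝒲 ≤ n) :
    ∃ (Λ : Type) (_ : Fintype Λ) (col : Λ → Fin (n + 1)) (G : Λ → X → ℝ), Col 𝒲 col G := by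
  have hne : {n | ∃ 𝒱 : Set (Set X), IsCover 𝒱 ∧ (∀ V ∈ 𝒱, ∃ U ∈ 𝒲, V ⊆ U) ∧
      ∀ x, {V ∈ 𝒱 | x ∈ V}.ncard ≤ n + 1}.Nonempty :=
    ⟨_, _, hW, fun V hV => ⟨V, hV, subset_rfl⟩, fun x =>
      (ncard_le_ncard (sep_subset _ _) hW.1).trans (Nat.le_succ _)⟩
  obtain ⟨𝒱, h𝒱, hr, ho⟩ := Nat.sInf_mem hne
  have : Finite 𝒱 := h𝒱.1
  have := Fintype.ofFinite 𝒱
  obtain ⟨v, hv, -, hvc⟩ := exists_iUnion_eq_closure_subset (u := fun V : 𝒱 => (V : Set X))
    (fun V => h𝒱.2.1 V V.2) (fun x => toFinite _) (by rw [← sUnion_eq_iUnion]; exact h𝒱.2.2)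
  have hf : ∀ V : 𝒱, ∃ f : C(X, ℝ), EqOn f 0 (V : Set X)ᶜ ∧ EqOn f 1 (closure (v V)) ∧
      ∀ x, f x ∈ Icc (0 : ℝ) 1 := fun V =>
    exists_continuous_zero_one_of_isClosed (h𝒱.2.1 V V.2).isClosed_compl isClosed_closure
      (disjoint_compl_left_iff_subset.2 (hvc V))
  choose f h0 h1 _ using hf
  have hin : ∀ (V : 𝒱) c, f V c ≠ 0 → c ∈ (V : Set X) := fun V c h => by
    by_contra hn
    exact h (h0 V hn)
  refine clr_abs (fun V => f V) (fun V => (f V).continuous) (fun c => ?_) (fun c => ?_) fun V => ?_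
  · obtain ⟨V, hV⟩ := mem_iUnion.1 (hv.symm ▸ mem_univ c : c ∈ ⋃ V, v V)
    exact ⟨V, h1 V (subset_closure hV)⟩
  · rw [← ncard_image_of_injective _ Subtype.val_injective]
    refine (ncard_le_ncard ?_ (h𝒱.1.subset (sep_subset _ _))).trans
      ((ho c).trans (Nat.succ_le_succ hn))
    rintro _ ⟨V, hV, rfl⟩
    exact ⟨V.2, hin V c hV⟩
  · obtain ⟨U, hU, h2⟩ := hr V V.2
    exact ⟨U, hU, fun x hx => h2 (hin V x hx)⟩

end Vale.Agent.P093
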