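import Vale.Agent.P093C.RetB

/-! P093C GrpA (TASK). The options along an orbit segment. Helper names start with `gra_`.
Apply `exists_R` with colours `Fin M × I ⊕ Fin N × I₀`, options `(Fin M × Fin q) × Λ ⊕ Fin N × Λ₀`, places `P = Fin N`, `x = φ τ`; `val (inl ((j, s), a)) = min 1 (2 * g (h ^ pos j s x)) * G a (h ^ pos j s x)`, `val (inr (n, a)) = fb n x * G₀ a (h ^ n x)` with `fb n x = ∏ (j, s) with pos j s ≤ n < pos j s + q, min 1 (2 * (1 - g (h ^ pos j s x)))`; `opt n` = the `inl ((j, s), a)` with `pos j s ≤ n < pos j s + q` and the `inr (n, a)`; `y` extended by `1 / 2`.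
`sep`: `Urp.disj` for `s ≠ s'` in the same block. `one`: either some such `(j, s)` has `1 / 2 ≤ g`, or `fb n x = 1`. `far`: every option `W n` determines `U n ∈ 𝒰` with `h ^ n x ∈ U n` whenever the value is not zero (`Col.sub`; for `inl` the member number `n - pos j s` of the join); `⋂ n, h^[n] ⁻¹' U n ∈ joinCov h 𝒰 N`. (`h^[n] x = (h ^ (n : ℤ)) x`: `Homeomorph.coe_pow`, `zpow_natCast`.)
Counting: split the set of colours into the two summands (`Set.ncard_union_le`, images under `Sum.inl`, `Sum.inr`); a colour `inr (n, i)` with sum `1 / 2` has `fb n x ≠ 0`. -/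

open Filter Topology Set

noncomputable section

namespace Vale.Agent.P093

section Aux

variable {X : Type} [TopologicalSpace X] {h : X ≃ₜ X} {q : ℕ} {ε : ℝ} {g : X → ℝ}
  {𝒰 : Set (Set X)} {Λ Λ₀ I I₀ : Type} {M N : ℕ} {col : Λ → I} {G : Λ → X → ℝ}
  {col₀ : Λ₀ → I₀} {G₀ : Λ₀ → X → ℝ}

/-- The block at `p` covers the place `n`. -/
def gra_in (n : Fin N) (p : Fin M × Fin q) : Prop :=
  pos p.1 p.2 ≤ (n : ℕ) ∧ ((n : ℕ) : ℤ) < pos p.1 p.2 + q

open Classical in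
/-- The weight of the fallback options. -/
def gra_fb (h : X ≃ₜ X) (g : X → ℝ) (M q : ℕ) (n : Fin N) (x : X) : ℝ :=
  ∏ p ∈ Finset.univ.filter (fun p : Fin M × Fin q => gra_in n p),
    min 1 (2 * (1 - g ((h ^ pos p.1 p.2) x)))

/-- The colours of the options. -/
def gra_col (M N q : ℕ) (col : Λ → I) (col₀ : Λ₀ → I₀) :
    ((Fin M × Fin q) × Λ) ⊕ (Fin N × Λ₀) → (Fin M × I) ⊕ (Fin N × I₀) :=
  Sum.map (fun o => (o.1.1, col o.2)) (fun o => (o.1, col₀ o.2))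

/-- The values of the options. -/
def gra_val (h : X ≃ₜ X) (g : X → ℝ) (M N q : ℕ) (G : Λ → X → ℝ) (G₀ : Λ₀ → X → ℝ) :
    ((Fin M × Fin q) × Λ) ⊕ (Fin N × Λ₀) → X → ℝ :=
  Sum.elim
    (fun o x => min 1 (2 * g ((h ^ pos o.1.1 o.1.2) x)) * G o.2 ((h ^ pos o.1.1 o.1.2) x))
    (fun o x => gra_fb h g M q o.1 x * G₀ o.2 ((h ^ ((o.1 : ℕ) : ℤ)) x))

/-- The options at the place `n`. -/
def gra_opt (M q : ℕ) (Λ Λ₀ : Type) (n : Fin N) : Set (((Fin M × Fin q) × Λ) ⊕ (Fin N × Λ₀)) :=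
  {o | Sum.elim (fun o => gra_in n o.1) (fun o => o.1 = n) o}

theorem gra_add (h : X ≃ₜ X) (a b : ℤ) (x : X) : (h ^ a) ((h ^ b) x) = (h ^ (a + b)) x := by
  rw [zpow_add]
  rfl

theorem gra_iter (h : X ≃ₜ X) (n : ℕ) (x : X) : h^[n] x = (h ^ (n : ℤ)) x := by
  rw [zpow_natCast]
  induction n with
  | zero => rfl
  | succ n ih =>
    rw [Function.iterate_succ_apply', pow_succ', ih]
    rfl

theorem gra_fb_mem (hU : Urp h q ε g) (n : Fin N) (x : X) :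
    0 ≤ gra_fb h g M q n x ∧ gra_fb h g M q n x ≤ 1 := by
  have h0 : ∀ y, 0 ≤ min 1 (2 * (1 - g y)) := fun y =>
    le_min zero_le_one (by linarith [hU.le_one y])
  exact ⟨Finset.prod_nonneg fun p _ => h0 _,
    Finset.prod_le_one (fun p _ => h0 _) fun p _ => min_le_left _ _⟩

theorem gra_cont (hU : Urp h q ε g) (hG : ∀ a, Continuous (G a)) (hG₀ : ∀ a, Continuous (G₀ a))
    (o : ((Fin M × Fin q) × Λ) ⊕ (Fin N × Λ₀)) : Continuous (gra_val h g M N q G G₀ o) := by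
  rcases o with o | o
  · exact (continuous_const.min (continuous_const.mul (hU.cont.comp (h ^ _).continuous))).mul
      ((hG _).comp (h ^ _).continuous)
  · refine Continuous.mul ?_ ((hG₀ _).comp (h ^ _).continuous)
    exact continuous_finsetProd _ fun p _ => continuous_const.min
      (continuous_const.mul (continuous_const.sub (hU.cont.comp (h ^ _).continuous)))

theorem gra_mem (hU : Urp h q ε g) {𝒱 : Set (Set X)} (hc : Col 𝒱 col G) (hc₀ : Col 𝒰 col₀ G₀)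
    (o : ((Fin M × Fin q) × Λ) ⊕ (Fin N × Λ₀)) (x : X) :
    0 ≤ gra_val h g M N q G G₀ o x ∧ gra_val h g M N q G G₀ o x ≤ 1 := by
  rcases o with o | o
  · have h0 : 0 ≤ min 1 (2 * g ((h ^ pos o.1.1 o.1.2) x)) :=
      le_min zero_le_one (by linarith [hU.nonneg ((h ^ pos o.1.1 o.1.2) x)])
    exact ⟨mul_nonneg h0 (hc.nonneg _ _),
      mul_le_one₀ (min_le_left _ _) (hc.nonneg _ _) (hc.le_one _ _)⟩
  · exact ⟨mul_nonneg (gra_fb_mem hU _ _).1 (hc₀.nonneg _ _),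
      mul_le_one₀ (gra_fb_mem hU _ _).2 (hc₀.nonneg _ _) (hc₀.le_one _ _)⟩

theorem gra_disj (hU : Urp h q ε g) (j : Fin M) {s s' : Fin q} (hs : s < s') (x : X) :
    g ((h ^ pos j s) x) = 0 ∨ g ((h ^ pos j s') x) = 0 := by
  by_cases h0 : g ((h ^ pos j s) x) = 0
  · exact Or.inl h0
  · right
    have h1 : (s : ℕ) < s' := hs
    have h2 := hU.disj _ h0 ((s' : ℕ) - s) (by omega) (by omega)
    have h3 : (((s' : ℕ) - s : ℕ) : ℤ) + pos j s = pos j s' := by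
      unfold pos
      omega
    rwa [gra_add, h3] at h2

theorem gra_zero {o : (Fin M × Fin q) × Λ} {x : X} (h0 : g ((h ^ pos o.1.1 o.1.2) x) = 0) :
    gra_val h g M N q G G₀ (Sum.inl o) x = 0 := by
  change min 1 (2 * g ((h ^ pos o.1.1 o.1.2) x)) * G o.2 ((h ^ pos o.1.1 o.1.2) x) = 0
  rw [h0, mul_zero, min_eq_right zero_le_one, zero_mul]

theorem gra_sep (hU : Urp h q ε g) {𝒱 : Set (Set X)} (hc : Col 𝒱 col G) (hc₀ : Col 𝒰 col₀ G₀)
    (a b : ((Fin M × Fin q) × Λ) ⊕ (Fin N × Λ₀)) (hab : a ≠ b)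
    (hcol : gra_col M N q col col₀ a = gra_col M N q col col₀ b) (x : X) :
    gra_val h g M N q G G₀ a x = 0 ∨ gra_val h g M N q G G₀ b x = 0 := by
  rcases a with ⟨⟨j, s⟩, a⟩ | ⟨n, a⟩ <;> rcases b with ⟨⟨j', s'⟩, b⟩ | ⟨n', b⟩
  · have h1 : ((j, col a) : Fin M × I) = (j', col b) := Sum.inl_injective hcol
    obtain ⟨rfl, h2⟩ := Prod.mk.inj h1
    rcases lt_trichotomy s s' with hs | rfl | hs
    · exact (gra_disj hU j hs x).imp gra_zero gra_zero
    · have h3 : a ≠ b := fun h4 => hab (by rw [h4])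
      exact (hc.sep a b h3 h2 ((h ^ pos j s) x)).imp (mul_eq_zero_of_right _)
        (mul_eq_zero_of_right _)
    · exact (gra_disj hU j hs x).symm.imp gra_zero gra_zero
  · exact absurd hcol Sum.inl_ne_inr
  · exact absurd hcol Sum.inr_ne_inl
  · have h1 : ((n, col₀ a) : Fin N × I₀) = (n', col₀ b) := Sum.inr_injective hcol
    obtain ⟨rfl, h2⟩ := Prod.mk.inj h1
    have h3 : a ≠ b := fun h4 => hab (by rw [h4])
    exact (hc₀.sep a b h3 h2 ((h ^ ((n : ℕ) : ℤ)) x)).imp (mul_eq_zero_of_right _)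
      (mul_eq_zero_of_right _)

theorem gra_one {𝒱 : Set (Set X)} (hc : Col 𝒱 col G) (hc₀ : Col 𝒰 col₀ G₀) (x : X) (n : Fin N) :
    ∃ o ∈ gra_opt M q Λ Λ₀ n, gra_val h g M N q G G₀ o x = 1 := by
  classical
  by_cases hex : ∃ p : Fin M × Fin q, gra_in n p ∧ 1 / 2 ≤ g ((h ^ pos p.1 p.2) x)
  · obtain ⟨p, hp, hg⟩ := hex
    obtain ⟨a, ha⟩ := hc.one ((h ^ pos p.1 p.2) x)
    refine ⟨Sum.inl (p, a), hp, ?_⟩
    change min 1 (2 * g ((h ^ pos p.1 p.2) x)) * G a ((h ^ pos p.1 p.2) x) = 1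
    rw [ha, mul_one, min_eq_left (by linarith)]
  · obtain ⟨a, ha⟩ := hc₀.one ((h ^ ((n : ℕ) : ℤ)) x)
    refine ⟨Sum.inr (n, a), rfl, ?_⟩
    change gra_fb h g M q n x * G₀ a ((h ^ ((n : ℕ) : ℤ)) x) = 1
    rw [ha, mul_one]
    refine Finset.prod_eq_one fun p hp => min_eq_left ?_
    have h1 : ¬ 1 / 2 ≤ g ((h ^ pos p.1 p.2) x) :=
      fun h2 => hex ⟨p, (Finset.mem_filter.1 hp).2, h2⟩
    linarith [not_le.1 h1]

theorem gra_sub (hc : Col (joinCov h 𝒰 q) col G) (hc₀ : Col 𝒰 col₀ G₀) (n : Fin N)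
    {o : ((Fin M × Fin q) × Λ) ⊕ (Fin N × Λ₀)} (ho : o ∈ gra_opt M q Λ Λ₀ n) :
    ∃ U ∈ 𝒰, ∀ x, gra_val h g M N q G G₀ o x ≠ 0 → h^[n] x ∈ U := by
  rcases o with ⟨p, a⟩ | ⟨n', a⟩
  · obtain ⟨h1, h2⟩ : gra_in n p := ho
    obtain ⟨_, ⟨c, hc1, rfl⟩, hW⟩ := hc.sub a
    have hk : (((n : ℕ) : ℤ) - pos p.1 p.2).toNat < q := by omega
    refine ⟨c ⟨_, hk⟩, hc1 _, fun x hx => ?_⟩
    have h3 : h^[(((n : ℕ) : ℤ) - pos p.1 p.2).toNat] ((h ^ pos p.1 p.2) x) ∈ c ⟨_, hk⟩ :=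
      mem_iInter.1 (hW _ (right_ne_zero_of_mul hx)) ⟨_, hk⟩
    have h4 : ((((n : ℕ) : ℤ) - pos p.1 p.2).toNat : ℤ) + pos p.1 p.2 = (n : ℕ) := by omega
    rw [gra_iter, gra_add, h4] at h3
    rw [gra_iter]
    exact h3
  · obtain rfl : n' = n := ho
    obtain ⟨U, hU, hW⟩ := hc₀.sub a
    refine ⟨U, hU, fun x hx => ?_⟩
    rw [gra_iter]
    exact hW _ (right_ne_zero_of_mul hx)

theorem gra_inl [Fintype Λ] [Fintype Λ₀] [DecidableEq I]
    [DecidableEq ((Fin M × I) ⊕ (Fin N × I₀))] (b : Fin M × I) (x : X) :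
    ∑ o with gra_col M N q col col₀ o = Sum.inl b, gra_val h g M N q G G₀ o x =
      ∑ s : Fin q, min 1 (2 * g ((h ^ pos b.1 s) x)) *
        ∑ a with col a = b.2, G a ((h ^ pos b.1 s) x) := by
  obtain ⟨j, i⟩ := b
  have hz : ∑ o : Fin N × Λ₀, (if gra_col M N q col col₀ (Sum.inr o) = Sum.inl (j, i) then
      gra_val h g M N q G G₀ (Sum.inr o) x else 0) = 0 :=
    Finset.sum_eq_zero fun o _ => if_neg Sum.inr_ne_inl
  rw [Finset.sum_filter, Fintype.sum_sum_type, hz,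
    add_zero, Fintype.sum_prod_type, Fintype.sum_prod_type, Finset.sum_eq_single j]
  · refine Finset.sum_congr rfl fun s _ => ?_
    rw [Finset.sum_filter, Finset.mul_sum]
    refine Finset.sum_congr rfl fun a _ => ?_
    by_cases ha : col a = i
    · have h1 : gra_col M N q col col₀ (Sum.inl ((j, s), a)) = Sum.inl (j, i) := by
        rw [← ha]
        rfl
      rw [if_pos h1, if_pos ha]
      rfl
    · have h1 : ¬ gra_col M N q col col₀ (Sum.inl ((j, s), a)) = Sum.inl (j, i) := fun h2 =>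
        ha (Prod.mk.inj (Sum.inl_injective h2)).2
      rw [if_neg h1, if_neg ha, mul_zero]
  · intro j' _ hj
    refine Finset.sum_eq_zero fun s _ => Finset.sum_eq_zero fun a _ => if_neg fun h2 => ?_
    exact hj (Prod.mk.inj (Sum.inl_injective h2)).1
  · intro hj
    exact absurd (Finset.mem_univ j) hj

theorem gra_inr [Fintype Λ] [Fintype Λ₀] [DecidableEq ((Fin M × I) ⊕ (Fin N × I₀))]
    (b : Fin N × I₀) (x : X)
    (hb : ∑ o with gra_col M N q col col₀ o = Sum.inr b, gra_val h g M N q G G₀ o x = 1 / 2)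
    (j : Fin M) (s : Fin q) (h1 : pos j s ≤ (b.1 : ℕ)) (h2 : ((b.1 : ℕ) : ℤ) < pos j s + q) :
    g ((h ^ pos j s) x) ≠ 1 := by
  classical
  intro hg
  have h0 : gra_fb h g M q b.1 x = 0 := by
    unfold gra_fb
    refine Finset.prod_eq_zero (i := (j, s))
      (by rw [Finset.mem_filter]; exact ⟨Finset.mem_univ _, h1, h2⟩) ?_
    change min 1 (2 * (1 - g ((h ^ pos j s) x))) = 0
    rw [hg, sub_self, mul_zero, min_eq_right zero_le_one]
  rw [Finset.sum_eq_zero] at hb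
  · norm_num at hb
  · intro o ho
    have h3 := (Finset.mem_filter.1 ho).2
    rcases o with o | ⟨n, a⟩
    · exact absurd h3 Sum.inl_ne_inr
    · have h4 : n = b.1 := congrArg Prod.fst (Sum.inr_injective h3)
      change gra_fb h g M q n x * G₀ a ((h ^ ((n : ℕ) : ℤ)) x) = 0
      rw [h4, h0, zero_mul]

end Aux

theorem exists_RC {X : Type} [TopologicalSpace X] {h : X ≃ₜ X} {q : ℕ} {ε : ℝ} {g : X → ℝ}
    (hU : Urp h q ε g) {𝒰 : Set (Set X)} {Λ Λ₀ I I₀ : Type} [Fintype Λ] [Fintype Λ₀] [Fintype I]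
    [DecidableEq I] [Fintype I₀] {col : Λ → I} {G : Λ → X → ℝ}
    (hc : Col (joinCov h 𝒰 q) col G) {col₀ : Λ₀ → I₀} {G₀ : Λ₀ → X → ℝ} (hc₀ : Col 𝒰 col₀ G₀)
    {M N m : ℕ} {φ : Cb m → X} (hφ : Continuous φ)
    (hsep : ∀ U ∈ joinCov h 𝒰 N, ∀ i s t, s i = 0 → t i = 1 → φ s ∈ U → φ t ∉ U)
    {Ω : Type} [TopologicalSpace Ω] {y : Ω → Fin M × I → ℝ} (yc : Continuous y)
    (y0 : ∀ ω i, 0 < y ω i) (y1 : ∀ ω i, y ω i < 1) :
    ∃ R : Cb m × Ω → Fin m → ℝ, Mir R ∧ ∀ τ ω, R (τ, ω) = 0 →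
      m ≤ {b : Fin M × I | ∑ s : Fin q, min 1 (2 * g ((h ^ pos b.1 s) (φ τ))) *
          ∑ a with col a = b.2, G a ((h ^ pos b.1 s) (φ τ)) = y ω b}.ncard +
        Fintype.card I₀ * {n : Fin N | ∀ (j : Fin M) (s : Fin q), pos j s ≤ (n : ℕ) →
          ((n : ℕ) : ℤ) < pos j s + q → g ((h ^ pos j s) (φ τ)) ≠ 1}.ncard := by
  classical
  obtain ⟨R, hR, hz⟩ := exists_R (m := m) (Ω := Ω) (col := gra_col M N q col col₀)
    (val := fun o τ => gra_val h g M N q G G₀ o (φ τ)) (gra_opt M q Λ Λ₀)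
    (fun o => (gra_cont hU hc.cont hc₀.cont o).comp hφ)
    (fun o τ => (gra_mem hU hc hc₀ o _).1) (fun o τ => (gra_mem hU hc hc₀ o _).2)
    (fun a b hab hcol τ => gra_sep hU hc hc₀ a b hab hcol _)
    (fun τ n => gra_one hc hc₀ _ n)
    (by
      intro W hW i τ τ' h0 h1 hτ hτ'
      choose U hU1 hU2 using fun n => gra_sub (g := g) hc hc₀ n (hW n)
      exact hsep (⋂ n : Fin N, h^[n] ⁻¹' U n) ⟨U, hU1, rfl⟩ i τ τ' h0 h1
        (mem_iInter.2 fun n => hU2 n _ (hτ n)) (mem_iInter.2 fun n => hU2 n _ (hτ' n)))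
    (y := fun ω => Sum.elim (y ω) fun _ => 1 / 2)
    (by
      refine continuous_pi fun i => ?_
      rcases i with i | i
      · exact (continuous_apply i).comp yc
      · exact continuous_const)
    (by
      rintro ω (i | i)
      · exact y0 ω i
      · exact one_half_pos)
    (by
      rintro ω (i | i)
      · exact y1 ω i
      · exact one_half_lt_one)
  refine ⟨R, hR, fun τ ω h0 => (hz τ ω h0).trans ?_⟩
  obtain ⟨A, hA⟩ : ∃ A, A = {b : Fin M × I | ∑ s : Fin q, min 1 (2 * g ((h ^ pos b.1 s) (φ τ))) *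
      ∑ a with col a = b.2, G a ((h ^ pos b.1 s) (φ τ)) = y ω b} := ⟨_, rfl⟩
  obtain ⟨B, hB⟩ : ∃ B, B = {n : Fin N | ∀ (j : Fin M) (s : Fin q), pos j s ≤ (n : ℕ) →
      ((n : ℕ) : ℤ) < pos j s + q → g ((h ^ pos j s) (φ τ)) ≠ 1} := ⟨_, rfl⟩
  rw [← hA, ← hB]
  have h2 : (Sum.inl '' A ∪ Sum.inr '' (B ×ˢ (univ : Set I₀)) :
      Set ((Fin M × I) ⊕ (Fin N × I₀))).ncard ≤ A.ncard + Fintype.card I₀ * B.ncard := by
    refine (Set.ncard_union_le _ _).trans ?_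
    rw [Set.ncard_image_of_injective _ Sum.inl_injective,
      Set.ncard_image_of_injective _ Sum.inr_injective, Set.ncard_prod, Set.ncard_univ,
      Nat.card_eq_fintype_card, mul_comm]
  refine le_trans (Set.ncard_le_ncard ?_ (Set.toFinite _)) h2
  rintro (b | b) hb
  · refine Or.inl ⟨b, ?_, rfl⟩
    rw [hA]
    exact (gra_inl (col₀ := col₀) (G₀ := G₀) (N := N) b (φ τ)).symm.trans hb
  · refine Or.inr ⟨b, ⟨?_, mem_univ _⟩, rfl⟩
    rw [hB]
    exact gra_inr b (φ τ) hb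

end Vale.Agent.P093
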