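import Vale.Agent.P093C.Defs
import Vale.Agent.P093H.Cnt

/-! P093C GrpB (TASK). Counting. Helper names start with `grb_`.
Every `u < q * M` is `pos j s` with `j = u / q`, `s = u % q`. Two visits differ by at least `q` (`Urp.disj`).
`unc_count`: `(u, i) ↦ u + i` is injective on visits times `range q`, with values in `range (q * M + q)` outside the uncovered set (compare `free_count` in `Vale/Agent/P093H/Cnt.lean`). `off_count`: `Off` = the complement of the image of the visits under the injective map `u ↦ u / q`. -/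

open Filter Topology Set

noncomputable section

namespace Vale.Agent.P093

variable {X : Type} [TopologicalSpace X] {h : X ≃ₜ X} {q : ℕ} {ε : ℝ} {g : X → ℝ}

theorem grb_far (hU : Urp h q ε g) (x : X) {a b : ℤ} (ha : g ((h ^ a) x) ≠ 0)
    (hb : g ((h ^ b) x) ≠ 0) (h1 : a < b) : a + q ≤ b := by
  by_contra hn
  refine hb ?_
  have e : b = ((b - a).toNat : ℕ) + a := by omega
  rw [e, zpow_add, Homeomorph.mul_apply]
  exact hU.disj _ ha _ (by omega) (by omega)

theorem grb_pos {M u : ℕ} (hu : u < q * M) : ∃ (j : Fin M) (s : Fin q), (u : ℤ) = pos j s ∧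
    (j : ℕ) = u / q := by
  have hq : 0 < q := Nat.pos_of_mul_pos_right (Nat.zero_lt_of_lt hu)
  refine ⟨⟨u / q, Nat.div_lt_of_lt_mul hu⟩, ⟨u % q, Nat.mod_lt _ hq⟩, ?_, rfl⟩
  unfold pos
  exact_mod_cast (Nat.div_add_mod u q).symm

theorem pos_single (hU : Urp h q ε g) {M : ℕ} (x : X) (j : Fin M) {s s' : Fin q}
    (hs : g ((h ^ pos j s) x) ≠ 0) (hne : s' ≠ s) : g ((h ^ pos j s') x) = 0 := by
  by_contra hn
  have h1 : (s' : ℕ) ≠ s := fun e => hne (Fin.ext e)
  have h2 := s.2
  have h3 := s'.2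
  rcases lt_or_gt_of_ne h1 with h4 | h4
  · have := grb_far hU x hn hs (by unfold pos; omega)
    unfold pos at this
    omega
  · have := grb_far hU x hs hn (by unfold pos; omega)
    unfold pos at this
    omega

theorem unc_count (hU : Urp h q ε g) {M N : ℕ} (hN : N ≤ q * M) (x : X) :
    {n : Fin N | ∀ (j : Fin M) (s : Fin q), pos j s ≤ (n : ℕ) →
      ((n : ℕ) : ℤ) < pos j s + q → g ((h ^ pos j s) x) ≠ 1}.ncard +
      q * cnt h {x | g x = 1} x (q * M) ≤ q * M + q := by
  classical
  let V := (Finset.range (q * M)).filter fun i : ℕ => (h ^ (i : ℤ)) x ∈ {x | g x = 1}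
  have hV : ∀ u ∈ V, u < q * M ∧ g ((h ^ (u : ℤ)) x) = 1 := fun u hu =>
    ⟨Finset.mem_range.1 (Finset.mem_filter.1 hu).1, (Finset.mem_filter.1 hu).2⟩
  let S := Finset.univ.filter fun n : Fin N => ∀ (j : Fin M) (s : Fin q), pos j s ≤ (n : ℕ) →
      ((n : ℕ) : ℤ) < pos j s + q → g ((h ^ pos j s) x) ≠ 1
  have e1 : {n : Fin N | ∀ (j : Fin M) (s : Fin q), pos j s ≤ (n : ℕ) →
      ((n : ℕ) : ℤ) < pos j s + q → g ((h ^ pos j s) x) ≠ 1}.ncard = S.card := by
    rw [← ncard_coe_finset, Finset.coe_filter_univ]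
  have h1 : (S.disjSum (V ×ˢ Finset.range q)).card ≤ (Finset.range (q * M + q)).card := by
    refine Finset.card_le_card_of_injOn (Sum.elim (fun n => (n : ℕ)) fun a => a.1 + a.2) ?_ ?_
    · rintro (n | a) ha
      · have := n.2
        exact Finset.mem_coe.2 (Finset.mem_range.2 (by simp only [Sum.elim_inl]; omega))
      · obtain ⟨a1, a2⟩ := Finset.mem_product.1 (Finset.inr_mem_disjSum.1 (Finset.mem_coe.1 ha))
        have := (hV _ a1).1
        have := Finset.mem_range.1 a2
        exact Finset.mem_coe.2 (Finset.mem_range.2 (by simp only [Sum.elim_inr]; omega))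
    · have key : ∀ n ∈ S, ∀ a ∈ V ×ˢ Finset.range q, (n : ℕ) ≠ a.1 + a.2 := fun n hn a ha e => by
        obtain ⟨a1, a2⟩ := Finset.mem_product.1 ha
        obtain ⟨j, s, e2, -⟩ := grb_pos (hV _ a1).1
        have := Finset.mem_range.1 a2
        exact (Finset.mem_filter.1 hn).2 j s (by omega) (by omega) (e2 ▸ (hV _ a1).2)
      rintro (n | a) ha (n' | a') ha' e
      · exact congrArg _ (Fin.ext e)
      · exact absurd e (key _ (Finset.inl_mem_disjSum.1 (Finset.mem_coe.1 ha)) _
          (Finset.inr_mem_disjSum.1 (Finset.mem_coe.1 ha')))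
      · exact absurd e.symm (key _ (Finset.inl_mem_disjSum.1 (Finset.mem_coe.1 ha')) _
          (Finset.inr_mem_disjSum.1 (Finset.mem_coe.1 ha)))
      · obtain ⟨a1, a2⟩ := Finset.mem_product.1 (Finset.inr_mem_disjSum.1 (Finset.mem_coe.1 ha))
        obtain ⟨b1, b2⟩ := Finset.mem_product.1 (Finset.inr_mem_disjSum.1 (Finset.mem_coe.1 ha'))
        have a3 := Finset.mem_range.1 a2
        have b3 := Finset.mem_range.1 b2
        have a4 := (hV _ a1).2.trans_ne one_ne_zero
        have b4 := (hV _ b1).2.trans_ne one_ne_zero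
        simp only [Sum.elim_inr] at e
        rcases lt_trichotomy a.1 a'.1 with h2 | h2 | h2
        · have := grb_far hU x a4 b4 (by omega)
          omega
        · exact congrArg _ (Prod.ext h2 (by omega))
        · have := grb_far hU x b4 a4 (by omega)
          omega
  rw [Finset.card_disjSum, Finset.card_product, Finset.card_range, Finset.card_range,
    mul_comm] at h1
  rw [e1]
  exact h1

theorem off_count (hU : Urp h q ε g) (M : ℕ) (x : X) : ∃ Off : Finset (Fin M),
    Off.card + cnt h {x | g x = 1} x (q * M) ≤ M ∧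
      ∀ j ∉ Off, ∃ s : Fin q, g ((h ^ pos j s) x) = 1 := by
  classical
  let V := (Finset.range (q * M)).filter fun i : ℕ => (h ^ (i : ℤ)) x ∈ {x | g x = 1}
  have hV : ∀ u ∈ V, u < q * M ∧ g ((h ^ (u : ℤ)) x) = 1 := fun u hu =>
    ⟨Finset.mem_range.1 (Finset.mem_filter.1 hu).1, (Finset.mem_filter.1 hu).2⟩
  let S := Finset.univ.filter fun j : Fin M => ∃ s : Fin q, g ((h ^ pos j s) x) = 1
  refine ⟨Sᶜ, ?_, fun j hj => (Finset.mem_filter.1 (not_not.1 (Finset.mem_compl.not.1 hj))).2⟩
  have h1 : V.card ≤ (S.image Fin.val).card := by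
    refine Finset.card_le_card_of_injOn (· / q) (fun u hu => ?_) fun a ha b hb e => ?_
    · obtain ⟨j, s, e1, e2⟩ := grb_pos (hV _ hu).1
      exact Finset.mem_coe.2 (Finset.mem_image.2 ⟨j, Finset.mem_filter.2
        ⟨Finset.mem_univ _, s, e1 ▸ (hV _ hu).2⟩, e2⟩)
    · obtain ⟨j, s, e1, e2⟩ := grb_pos (hV _ ha).1
      obtain ⟨j', s', e3, e4⟩ := grb_pos (hV _ hb).1
      obtain rfl : j = j' := Fin.ext (e2.trans (Eq.trans e e4.symm))
      by_cases h2 : s' = s
      · subst h2
        exact_mod_cast e1.trans e3.symm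
      · exact absurd (pos_single hU x j (e1 ▸ (hV _ ha).2.trans_ne one_ne_zero) h2)
          (e3 ▸ (hV _ hb).2.trans_ne one_ne_zero)
  have h2 := h1.trans Finset.card_image_le
  have h3 := Finset.card_add_card_compl S
  rw [Fintype.card_fin] at h3
  change Sᶜ.card + V.card ≤ M
  omega

end Vale.Agent.P093
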