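import Vale.Agent.P093.Grp
import Vale.Agent.P093C.GrpA
import Vale.Agent.P093C.GrpB

/-! P093C GrpC (TASK). Grouping of the colours. Helper names start with `grc_`. Compare `Pat.mark` in `Vale/Agent/P093/Grp.lean`.
`ι : Fin γ × Fin (2 t + 1) ↪ Fin (n + 1)`, `j`, `r` from `exists_emb t`; `ρ (b, i) x = r (fun a => 3 * (min 1 (2 * g x) * ∑ l with col l = ι (b, a), G l x) - 1) i`; `y ω (u, c) = (1 + Function.extend ι (fun b => (j (fun i => ω (u, b.1, i)) b.2 : ℝ)) 0 c) / 3 ∈ [1 / 3, 2 / 3]` (`grp_cont` in `P093/Grp.lean` may be imported).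
For `C` take `N` large from `hcube`, `M = N / q + 1` (`q M - q ≤ N ≤ q M`), `R` from `exists_RC`; `δ = n + 1 - c q + (n₀ + 1) ε q ≥ 0`, `k₀ = ⌊M δ + c q + (n₀ + 1) (q + C₀)⌋₊` with `C₀ ≥ 0` from `Urp.fill` (`N = 0`), `k = t k₀`, `o = ⌊ε M + C₀ / q⌋₊`. At a zero of `R` the set `E` of colours `(u, c)` without equality has `card E ≤ M (n + 1) - m + (n₀ + 1) (ε q M + q + C₀) ≤ k₀` (`unc_count`, `Set.ncard_add_ncard_compl`); `Bad` = the image of `{((u, b, a), i) | (u, ι (b, a)) ∈ E}`. For a good line use `pos_single` (`Finset.sum_eq_single`). `off_count` for the second property. Finally `4 t k₀ + C + o p < M p` for large `M`, from `8 t δ < p`, `ε ≤ 1 / 2`. -/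

open Filter Topology Set

noncomputable section

namespace Vale.Agent.P093

theorem grc_bad {M γ t a : ℕ} {I : Type} [Fintype I] (ι : Fin γ × Fin a ↪ I)
    (E : Set (Fin M × I)) : ∃ Bad : Finset (Fin M × Fin γ × Fin t), Bad.card ≤ t * E.ncard ∧
      ∀ b ∉ Bad, ∀ c, (b.1, ι (b.2.1, c)) ∉ E := by
  classical
  let B : Finset ((Fin M × Fin γ × Fin a) × Fin t) :=
    Finset.univ.filter fun b => (b.1.1, ι b.1.2) ∈ E
  refine ⟨B.image fun b => (b.1.1, b.1.2.1, b.2), Finset.card_image_le.trans ?_,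
    fun b hb c hc => hb (Finset.mem_image.2 ⟨((b.1, b.2.1, c), b.2.2),
      Finset.mem_filter.2 ⟨Finset.mem_univ _, hc⟩, rfl⟩)⟩
  have h1 : B.card ≤ (E.toFinset ×ˢ (Finset.univ : Finset (Fin t))).card := by
    refine Finset.card_le_card_of_injOn (fun b => ((b.1.1, ι b.1.2), b.2)) (fun b hb => ?_) ?_
    · exact Finset.mem_coe.2 (Finset.mem_product.2 ⟨mem_toFinset.2
        (Finset.mem_filter.1 (Finset.mem_coe.1 hb)).2, Finset.mem_univ _⟩)
    · intro b _ b' _ hb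
      simp only [Prod.mk.injEq] at hb
      exact Prod.ext (Prod.ext hb.1.1 (ι.injective hb.1.2)) hb.2
  rwa [Finset.card_product, Finset.card_univ, Fintype.card_fin, ← ncard_eq_toFinset_card',
    mul_comm] at h1

theorem grc_M {q N M₀ : ℕ} (hq : 0 < q) (h : q * M₀ ≤ N) :
    ∃ M, M₀ ≤ M ∧ N ≤ q * M ∧ q * M ≤ N + q := by
  refine ⟨N / q + 1, ?_, (Nat.lt_mul_div_succ N hq).le, ?_⟩
  · have := (Nat.le_div_iff_mul_le hq).2 (mul_comm q M₀ ▸ h)
    omega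
  · rw [mul_add, mul_one]
    exact Nat.add_le_add_right (Nat.mul_div_le N q) q

theorem grc_ar {M N m e e' v k q n n₀ : ℕ} {c ε C₀ : ℝ} (c0 : 0 ≤ c) (h1 : m ≤ e + (n₀ + 1) * v)
    (h2 : e + e' = M * (n + 1)) (h3 : v + q * k ≤ q * M + q)
    (h4 : (1 - ε) * ((q * M : ℕ) : ℝ) ≤ q * k + C₀) (hm : c * N ≤ m) (hN : q * M ≤ N + q) :
    (e' : ℝ) ≤ M * (n + 1 - c * q + (n₀ + 1) * ε * q) + (c * q + (n₀ + 1) * (q + C₀)) := by
  have g1 := (Nat.cast_le (α := ℝ)).2 h1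
  have g2 := congrArg (Nat.cast (R := ℝ)) h2
  have g3 := (Nat.cast_le (α := ℝ)).2 h3
  have g4 := (Nat.cast_le (α := ℝ)).2 hN
  push_cast at g1 g2 g3 g4 h4
  have g5 := mul_le_mul_of_nonneg_left g4 c0
  have g6 : (v : ℝ) ≤ ε * q * M + q + C₀ := by linarith
  have g7 := mul_le_mul_of_nonneg_left g6 (by positivity : (0 : ℝ) ≤ n₀ + 1)
  linarith

theorem exists_markC {X : Type} [TopologicalSpace X] {h : X ≃ₜ X} {q : ℕ} (hq : 0 < q) {ε : ℝ}
    (hε : 0 < ε) (hε' : ε ≤ 1 / 2) {g : X → ℝ} (hU : Urp h q ε g) {𝒰 : Set (Set X)}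
    {Λ Λ₀ : Type} [Fintype Λ] [Fintype Λ₀] {n n₀ : ℕ} {col : Λ → Fin (n + 1)} {G : Λ → X → ℝ}
    (hc : Col (joinCov h 𝒰 q) col G) {col₀ : Λ₀ → Fin (n₀ + 1)} {G₀ : Λ₀ → X → ℝ}
    (hc₀ : Col 𝒰 col₀ G₀) {c : ℝ} (c0 : 0 ≤ c) (c1 : c * q ≤ n + 1)
    (hcube : ∀ N₀ : ℕ, ∃ N ≥ N₀, ∃ (m : ℕ) (φ : Cb m → X), Continuous φ ∧ c * N ≤ m ∧
      ∀ U ∈ joinCov h 𝒰 N, ∀ i s t, s i = 0 → t i = 1 → φ s ∈ U → φ t ∉ U)
    {t γ p : ℕ} (hγ : γ * (2 * t + 1) ≤ n + 1)
    (hp : 8 * t * (n + 1 - c * q + (n₀ + 1) * ε * q) < p) :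
    ∃ ρ : Fin γ × Fin t → X → Fin 3 → ℝ, MarkC h q p ε g ρ := by
  classical
  obtain ⟨ι⟩ : Nonempty (Fin γ × Fin (2 * t + 1) ↪ Fin (n + 1)) :=
    Function.Embedding.nonempty_of_card_le (by simpa using hγ)
  obtain ⟨j, r, hj, hr, hr1, hrj⟩ := exists_emb t
  obtain ⟨C₀, hC0, hC⟩ : ∃ C₀ : ℝ, 0 ≤ C₀ ∧
      ∀ x (N : ℕ), (1 - ε) * N ≤ q * cnt h {x | g x = 1} x N + C₀ := by
    obtain ⟨C₀, hC⟩ := hU.fill
    exact ⟨max C₀ 0, le_max_right _ _, fun x N =>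
      (hC x N).trans (add_le_add le_rfl (le_max_left _ _))⟩
  refine ⟨fun b x => r (fun a => 3 * (min 1 (2 * g x) * ∑ l with col l = ι (b.1, a), G l x) - 1)
    b.2, hU, fun b => ?_, fun b x => hr1 _ _, fun C => ?_⟩
  · refine (continuous_apply b.2).comp (hr.comp (continuous_pi fun a => ?_))
    exact (continuous_const.mul ((continuous_const.min (continuous_const.mul hU.cont)).mul
      (continuous_finsetSum _ fun l _ => hc.cont l))).sub continuous_const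
  obtain ⟨δ, hδ⟩ : ∃ δ : ℝ, δ = n + 1 - c * q + (n₀ + 1) * ε * q := ⟨_, rfl⟩
  obtain ⟨A, hA⟩ : ∃ A : ℝ, A = c * q + (n₀ + 1) * (q + C₀) := ⟨_, rfl⟩
  have hδ0 : 0 ≤ δ := by
    have : (0 : ℝ) ≤ (n₀ + 1) * ε * q := by positivity
    linarith
  have hA0 : 0 ≤ A := by
    rw [hA]
    positivity
  rw [← hδ] at hp
  have hp' : 0 < p / 2 - 4 * t * δ := by linarith
  obtain ⟨M₀, hM₀⟩ := exists_nat_gt ((4 * t * A + C + C₀ * p) / (p / 2 - 4 * t * δ))
  rw [div_lt_iff₀ hp'] at hM₀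
  obtain ⟨N, hN, m, φ, hφ, hm, hsep⟩ := hcube (q * M₀)
  obtain ⟨M, hM, hN1, hN2⟩ := grc_M hq hN
  let F : (Fin M × Fin γ × Fin t → S2) → Fin M → Fin γ × Fin (2 * t + 1) → unitInterval :=
    fun w u b => j (fun i => w (u, b.1, i)) b.2
  let y : (Fin M × Fin γ × Fin t → S2) → Fin M × Fin (n + 1) → ℝ := fun w b =>
    (1 + (Function.extend ι (F w b.1) 0 b.2 : unitInterval)) / 3
  have yc : Continuous y := continuous_pi fun b =>
    (continuous_const.add (continuous_subtype_val.comp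
      (grp_cont ι.injective (F := fun w => F w b.1) (fun a => by fun_prop) 0 b.2))).div_const 3
  obtain ⟨R, hR, hR'⟩ := exists_RC hU hc hc₀ (M := M) hφ hsep yc
    (fun w b => by
      have := (Function.extend ι (F w b.1) 0 b.2).2.1
      simp only [y]
      linarith)
    (fun w b => by
      have := (Function.extend ι (F w b.1) 0 b.2).2.2
      simp only [y]
      linarith)
  have hq1 : (1 : ℝ) ≤ q := by exact_mod_cast hq
  refine ⟨M, m, t * ⌊M * δ + A⌋₊, ⌊(M : ℝ) / 2 + C₀⌋₊, φ, R, hφ, hR, fun τ w h0 => ?_,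
    fun τ => ?_, ?_⟩
  · have h1 := hR' τ w h0
    obtain ⟨Bad, hB, hB'⟩ := grc_bad (t := t) ι {b : Fin M × Fin (n + 1) | ∑ s : Fin q,
      min 1 (2 * g ((h ^ pos b.1 s) (φ τ))) *
        ∑ a with col a = b.2, G a ((h ^ pos b.1 s) (φ τ)) = y w b}ᶜ
    refine ⟨Bad, hB.trans (Nat.mul_le_mul_left t (Nat.le_floor ?_)), fun b hb s hs => ?_⟩
    · have h2 := ncard_add_ncard_compl {b : Fin M × Fin (n + 1) | ∑ s : Fin q,
        min 1 (2 * g ((h ^ pos b.1 s) (φ τ))) *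
          ∑ a with col a = b.2, G a ((h ^ pos b.1 s) (φ τ)) = y w b}
      have h3 := unc_count hU hN1 (φ τ)
      have h4 := hC (φ τ) (q * M)
      rw [Nat.card_eq_fintype_card, Fintype.card_prod, Fintype.card_fin, Fintype.card_fin] at h2
      rw [Fintype.card_fin] at h1
      rw [hδ, hA]
      exact grc_ar c0 h1 h2 h3 h4 hm hN2
    · refine Eq.trans (congrArg (fun z => r z b.2.2) (funext fun a => ?_))
        (hrj (fun i => w (b.1, b.2.1, i)) b.2.2)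
      have h2 := not_not.1 (hB' b hb a)
      rw [mem_ofPred_eq, Finset.sum_eq_single s
        (fun s' _ hs' => by rw [pos_single hU _ _ hs hs']; simp) (by simp)] at h2
      rw [h2]
      simp only [y, ι.injective.extend_apply, F]
      ring
  · obtain ⟨Off, h1, h2⟩ := off_count hU M (φ τ)
    refine ⟨Off, Nat.le_floor ?_, h2⟩
    have h3 := (Nat.cast_le (α := ℝ)).2 h1
    have h4 := hC (φ τ) (q * M)
    push_cast at h3 h4
    have h5 := mul_le_mul_of_nonneg_left h3 (by positivity : (0 : ℝ) ≤ q)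
    have h6 := mul_le_mul_of_nonneg_right hε' (by positivity : (0 : ℝ) ≤ q * M)
    have h7 := mul_le_mul_of_nonneg_right hq1 hC0
    refine le_of_mul_le_mul_left ?_ (by positivity : (0 : ℝ) < q)
    linarith
  · have h1 := Nat.floor_le (by positivity : (0 : ℝ) ≤ M * δ + A)
    have h2 := Nat.floor_le (by positivity : (0 : ℝ) ≤ (M : ℝ) / 2 + C₀)
    have h3 := mul_le_mul_of_nonneg_left h1 (by positivity : (0 : ℝ) ≤ 4 * t)
    have h4 := mul_le_mul_of_nonneg_right h2 (by positivity : (0 : ℝ) ≤ p)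
    have h5 := mul_le_mul_of_nonneg_right ((Nat.cast_le (α := ℝ)).2 hM) hp'.le
    refine (Nat.cast_lt (α := ℝ)).1 ?_
    push_cast
    linarith

end Vale.Agent.P093
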