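import Vale.Agent.P093C.Defs

/-! P093C RS (TASK). Vandermonde matrices. Helper names start with `rsc_`.
`exists_code`: injective nodes `x : A → ℝ` (`Fintype.equivFin`, `Nat.cast`), `E o a = x a ^ (Fintype.equivFin O o)`; the polynomial `∑ o, monomial (e o) (v o)` is nonzero of degree `< card O` (`Polynomial.card_roots'`, or `Polynomial.eq_zero_of_degree_lt_of_eval_index_eq_zero`).
`exists_check`: `Mx d a = x a ^ d`; for `a₀` in the support `S` the polynomial `∏ a ∈ S.erase a₀, (X - C (x a))` has degree `< k`, and `∑ a, f.eval (x a) * w a = 0` for every such polynomial (`Polynomial.eval_eq_sum_range'`). -/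

open Filter Topology Set

noncomputable section

namespace Vale.Agent.P093

theorem exists_code (O A : Type) [Fintype O] [Fintype A] : ∃ E : O → A → ℝ,
    ∀ v : O → ℝ, v ≠ 0 → {a | ∑ o, v o * E o a = 0}.ncard < Fintype.card O := by
  classical
  let e := Fintype.equivFin O
  let x : A → ℝ := fun a => (Fintype.equivFin A a : ℕ)
  have hx : Function.Injective x := fun a b hab =>
    (Fintype.equivFin A).injective (Fin.ext (Nat.cast_injective (R := ℝ) hab))
  refine ⟨fun o a => x a ^ (e o : ℕ), fun v hv => ?_⟩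
  let f : Polynomial ℝ := ∑ o, Polynomial.monomial (e o : ℕ) (v o)
  obtain ⟨o₀, ho⟩ := Function.ne_iff.1 hv
  have f0 : f ≠ 0 := fun h0 => ho (by
    have h1 := congrArg (Polynomial.coeff · (e o₀ : ℕ)) h0
    simp only [f, Polynomial.finsetSum_coeff, Polynomial.coeff_monomial,
      Polynomial.coeff_zero] at h1
    rw [Finset.sum_eq_single o₀ (fun o _ h2 => if_neg fun h3 => h2 (e.injective (Fin.ext h3)))
      (by simp), if_pos rfl] at h1
    exact h1)
  have hc : 0 < Fintype.card O := Fintype.card_pos_iff.2 ⟨o₀⟩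
  have fd : f.natDegree ≤ Fintype.card O - 1 :=
    Polynomial.natDegree_sum_le_of_forall_le _ _ fun o _ =>
      (Polynomial.natDegree_monomial_le _).trans (by have := (e o).2; omega)
  have h1 : {a | ∑ o, v o * x a ^ (e o : ℕ) = 0}.ncard ≤ (↑f.roots.toFinset : Set ℝ).ncard :=
    ncard_le_ncard_of_injOn x (fun a ha => by
      rw [Finset.mem_coe, Multiset.mem_toFinset, Polynomial.mem_roots f0, Polynomial.IsRoot]
      simp only [f, Polynomial.eval_finsetSum, Polynomial.eval_monomial]
      exact ha) hx.injOn (toFinite _)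
  rw [ncard_coe_finset] at h1
  have h2 := (Multiset.toFinset_card_le f.roots).trans (Polynomial.card_roots' f)
  exact lt_of_le_of_lt h1 (by omega)

theorem exists_check (k : ℕ) (A : Type) [Fintype A] : ∃ Mx : Fin k → A → ℂ,
    ∀ w : A → ℂ, {a | w a ≠ 0}.ncard ≤ k → (∀ d, ∑ a, Mx d a * w a = 0) → w = 0 := by
  classical
  let x : A → ℂ := fun a => (Fintype.equivFin A a : ℕ)
  have hx : Function.Injective x := fun a b hab =>
    (Fintype.equivFin A).injective (Fin.ext (Nat.cast_injective (R := ℂ) hab))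
  refine ⟨fun d a => x a ^ (d : ℕ), fun w hw h0 => funext fun a₀ => by_contra fun ha => ?_⟩
  let S : Finset A := Finset.univ.filter fun a => w a ≠ 0
  have hS : S.card ≤ k := by
    rw [← ncard_coe_finset]
    simpa [S] using hw
  have aS : a₀ ∈ S := Finset.mem_filter.2 ⟨Finset.mem_univ _, ha⟩
  let f : Polynomial ℂ := ∏ a ∈ S.erase a₀, (Polynomial.X - Polynomial.C (x a))
  have fd : f.natDegree < k := by
    rw [Polynomial.natDegree_finsetProd_X_sub_C_eq_card, Finset.card_erase_of_mem aS]
    have := Finset.card_pos.2 ⟨_, aS⟩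
    omega
  have h1 : ∑ a, f.eval (x a) * w a = 0 := by
    simp only [Polynomial.eval_eq_sum_range' fd, Finset.sum_mul]
    rw [Finset.sum_comm]
    refine Finset.sum_eq_zero fun d hd => ?_
    simp only [mul_assoc, ← Finset.mul_sum]
    rw [h0 ⟨d, Finset.mem_range.1 hd⟩, mul_zero]
  rw [Finset.sum_eq_single a₀ (fun a _ h2 => by
    by_cases h3 : w a = 0
    · rw [h3, mul_zero]
    · rw [Polynomial.eval_prod, Finset.prod_eq_zero (Finset.mem_erase.2
        ⟨h2, Finset.mem_filter.2 ⟨Finset.mem_univ _, h3⟩⟩) (by simp), zero_mul]) (by simp)] at h1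
  refine mul_ne_zero ?_ ha h1
  rw [Polynomial.eval_prod]
  refine Finset.prod_ne_zero_iff.2 fun a h2 => ?_
  simpa [sub_eq_zero] using fun h3 => (Finset.mem_erase.1 h2).1 (hx h3).symm

end Vale.Agent.P093
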