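import Vale.Agent.P093C.Stmt

/-! P093C: growth rates of a cover. -/

open Filter
open scoped ENNReal

noncomputable section

namespace Vale.Agent.P093

variable {X : Type} [TopologicalSpace X]

/-- The growth rate of the least order. -/
def ordRate (h : X ≃ₜ X) (𝒰 : Set (Set X)) : ℝ≥0∞ :=
  limsup (fun N : ℕ => (leastOrd (joinCov h 𝒰 N) : ℝ≥0∞) / N) atTop

/-- The growth rate of the dimension of separated cubes. -/
def cubeRate (h : X ≃ₜ X) (𝒰 : Set (Set X)) : ℝ≥0∞ :=
  limsup (fun N : ℕ => cubeOrd (joinCov h 𝒰 N) / N) atTop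

end Vale.Agent.P093
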