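import Vale.Agent.P093C.Defs

/-! P093C RetA. A generic point and an order statistic. Helper names start with `rta_`.
`exists_gen`: for `S : Finset O` with `card S < m` and `b : O → Bool` let `a S b : (S → ℝ) → O → ℝ` be the affine map filling the coordinates outside `S` with `0` or `1`. The map `Ξ θ = (∑ W, pw W θ)⁻¹ • ∑ W, pw W θ • e W` composed with `a S b` is `C¹` at all points of the open set where the denominator is not zero; its image has `dimH ≤ card S < m` (`dimH_image_le_of_locally_lipschitzOn`, `ContDiffAt.exists_lipschitzOnWith`, `Real.dimH_univ_pi`, `dimH_mono`); finite union (`dimH_iUnion`, `iSup_lt`-type lemma or a uniform bound `m - 1`), `dense_compl_of_dimH_lt_finrank`, `Dense.exists_mem_open` for the open cube.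
`exists_mu`: `μ z` = minimum of `1` and of the numbers `max_{i ∈ S} |s z i|` over all `S` with `card S = m`; for example `Finset.inf'` over `Option {S : Finset I // S.card = m}`, inner maximum `‖fun i : S => s z i‖` (`pi_norm_lt_iff`, `Continuous.finset_inf'_apply`, `Finset.exists_mem_eq_inf'`, `Finset.exists_subset_card_eq`). -/

open Filter Topology Set

noncomputable section

namespace Vale.Agent.P093

theorem rta_dim {m : ℕ} {O 𝒲 J : Type} [Fintype O] [Fintype 𝒲] [Fintype J]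
    (pw : 𝒲 → (O → ℝ) → ℝ) (hp : ∀ W, ContDiff ℝ 1 (pw W)) (e : 𝒲 → Fin m → ℝ)
    {a : (J → ℝ) → O → ℝ} (ha : ContDiff ℝ 1 a) :
    dimH ((fun x => (∑ W, pw W (a x))⁻¹ • ∑ W, pw W (a x) • e W) ''
      {x | ∑ W, pw W (a x) ≠ 0}) ≤ Fintype.card J := by
  refine (dimH_image_le_of_locally_lipschitzOn fun x hx => ?_).trans
    ((dimH_mono (subset_univ _)).trans (Real.dimH_univ_pi J).le)
  have h1 : ∀ W, ContDiffAt ℝ 1 (fun x => pw W (a x)) x := fun W => ((hp W).comp ha).contDiffAt
  have h : ContDiffAt ℝ 1 (fun x => (∑ W, pw W (a x))⁻¹ • ∑ W, pw W (a x) • e W) x :=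
    ((ContDiffAt.sum fun W _ => h1 W).inv hx).smul
      (ContDiffAt.sum fun W _ => (h1 W).smul contDiffAt_const)
  obtain ⟨C, t, ht, h⟩ := h.exists_lipschitzOnWith
  exact ⟨C, t, mem_nhdsWithin_of_mem_nhds ht, h⟩

theorem exists_gen {m : ℕ} {O 𝒲 : Type} [Fintype O] [Fintype 𝒲] (pw : 𝒲 → (O → ℝ) → ℝ)
    (hp : ∀ W, ContDiff ℝ 1 (pw W)) (e : 𝒲 → Fin m → ℝ) :
    ∃ c : Fin m → ℝ, (∀ i, 0 < c i ∧ c i < 1) ∧ ∀ θ : O → ℝ,
      {o | θ o ≠ 0 ∧ θ o ≠ 1}.ncard < m → ∑ W, pw W θ ≠ 0 →
        ∃ i, ∑ W, pw W θ * (e W i - c i) ≠ 0 := by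
  classical
  rcases Nat.eq_zero_or_pos m with rfl | hm
  · exact ⟨0, fun i => i.elim0, fun θ h => absurd h (Nat.not_lt_zero _)⟩
  let a : (S : Finset O) → (O → Bool) → (S → ℝ) → O → ℝ := fun S b x o =>
    if h : o ∈ S then x ⟨o, h⟩ else if b o then 1 else 0
  have ha : ∀ S b, ContDiff ℝ 1 (a S b) := fun S b => contDiff_pi.2 fun o => by
    by_cases h : o ∈ S
    · simp only [a, dif_pos h]
      exact contDiff_apply ℝ ℝ _
    · simp only [a, dif_neg h]
      exact contDiff_const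
  have hd : dimH (⋃ p : {S : Finset O // S.card < m} × (O → Bool),
      (fun x => (∑ W, pw W (a p.1.1 p.2 x))⁻¹ • ∑ W, pw W (a p.1.1 p.2 x) • e W) ''
        {x | ∑ W, pw W (a p.1.1 p.2 x) ≠ 0}) < Module.finrank ℝ (Fin m → ℝ) := by
    rw [dimH_iUnion, Module.finrank_fin_fun]
    refine lt_of_le_of_lt (b := ((m - 1 : ℕ) : ENNReal))
      (iSup_le fun p => (rta_dim pw hp e (ha _ _)).trans ?_) (Nat.cast_lt.2 (by omega))
    have := p.1.2
    rw [Fintype.card_coe]
    exact Nat.cast_le.2 (by omega)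
  obtain ⟨c, hc, hc'⟩ := (dense_compl_of_dimH_lt_finrank hd).exists_mem_open
    (U := Set.pi univ fun _ => Ioo (0 : ℝ) 1) (isOpen_set_pi finite_univ fun _ _ => isOpen_Ioo)
    ⟨fun _ => 1 / 2, fun _ _ => ⟨by norm_num, by norm_num⟩⟩
  refine ⟨c, fun i => hc' i trivial, fun θ hθ h0 => ?_⟩
  by_contra hn
  have hn' : ∀ i, ∑ W, pw W θ * (e W i - c i) = 0 := fun i => by
    by_contra h
    exact hn ⟨i, h⟩
  let S : Finset O := Finset.univ.filter fun o => θ o ≠ 0 ∧ θ o ≠ 1
  have hS : S.card < m := by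
    rw [← Set.ncard_coe_finset]
    simpa [S] using hθ
  have e1 : a S (fun o => decide (θ o = 1)) (fun o => θ o) = θ := by
    funext o
    by_cases h : o ∈ S
    · simp only [a, dif_pos h]
    · simp only [a, dif_neg h]
      by_cases h1 : θ o = 1
      · simp [h1]
      · by_cases h2 : θ o = 0
        · simp [h2]
        · exact absurd (Finset.mem_filter.2 ⟨Finset.mem_univ o, h2, h1⟩) h
  refine hc (mem_iUnion.2 ⟨(⟨S, hS⟩, fun o => decide (θ o = 1)), fun o => θ o, ?_, ?_⟩)
  · simpa only [mem_ofPred_eq, e1] using h0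
  · simp only [e1]
    funext i
    have h1 := hn' i
    simp only [mul_sub, Finset.sum_sub_distrib, ← Finset.sum_mul] at h1
    simp only [Pi.smul_apply, Finset.sum_apply, smul_eq_mul]
    rw [sub_eq_zero.1 h1, inv_mul_cancel_left₀ h0]

theorem exists_mu {Z I : Type} [TopologicalSpace Z] [Fintype I] {s : Z → I → ℝ}
    (hs : Continuous s) {m : ℕ} (hm : 0 < m) :
    ∃ μ : Z → ℝ, Continuous μ ∧ (∀ z, 0 ≤ μ z) ∧ (∀ z, μ z ≤ 1) ∧
      (∀ z, μ z = 0 → m ≤ {i | s z i = 0}.ncard) ∧ ∀ z, {i | |s z i| < μ z}.ncard < m := by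
  classical
  let f : Option {S : Finset I // S.card = m} → Z → ℝ := fun o z =>
    o.elim 1 fun S => ‖fun i : S.1 => s z i‖
  have hf : ∀ o, Continuous (f o) := fun o => by
    rcases o with _ | S
    · exact continuous_const
    · exact (continuous_pi fun i : S.1 => (continuous_apply i.1).comp hs).norm
  have hle : ∀ z o, Finset.univ.inf' Finset.univ_nonempty (f · z) ≤ f o z := fun z o =>
    Finset.inf'_le (f · z) (Finset.mem_univ o)
  refine ⟨fun z => Finset.univ.inf' Finset.univ_nonempty (f · z),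
    Continuous.finset_inf'_apply _ fun o _ => hf o, fun z => Finset.le_inf' _ _ fun o _ => ?_,
    fun z => hle z none, fun z hz => ?_, fun z => lt_of_not_ge fun h => ?_⟩
  · rcases o with _ | S
    · exact zero_le_one
    · exact norm_nonneg _
  · obtain ⟨o, -, ho⟩ := Finset.exists_mem_eq_inf' Finset.univ_nonempty (f · z)
    have h0 : f o z = 0 := ho.symm.trans hz
    rcases o with _ | S
    · exact absurd h0 one_ne_zero
    · have h1 : (fun i : S.1 => s z i) = 0 := norm_eq_zero.1 h0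
      rw [← S.2, ← Set.ncard_coe_finset]
      exact Set.ncard_le_ncard (fun i hi => congrFun h1 ⟨i, hi⟩) (toFinite _)
  · rw [Set.ncard_eq_toFinset_card _ (toFinite _)] at h
    obtain ⟨S, hS, hc⟩ := Finset.exists_subset_card_eq h
    have h1 : ∀ i ∈ S, |s z i| < Finset.univ.inf' Finset.univ_nonempty (f · z) := fun i hi => by
      have h2 := hS hi
      rwa [Finite.mem_toFinset] at h2
    obtain ⟨j, hj⟩ := Finset.card_pos.1 (hc ▸ hm)
    exact (hle z (some ⟨S, hc⟩)).not_gt
      ((pi_norm_lt_iff ((abs_nonneg _).trans_lt (h1 j hj))).2 fun i => h1 i.1 i.2)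

end Vale.Agent.P093
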