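import Vale.Agent.P093C.Defs

/-! P093C UrpA (TASK). A marker function. Helper names start with `ura_`.
`aper_of_min`: a periodic orbit is finite (`Int.emod_add_mul_ediv`), closed and dense, so the space is finite.
`exists_bump`: fix `z₀`; for `0 < i < Q` the set `{(a, b) | h ^ i a ≠ b}` is an open neighbourhood of `(z₀, z₀)`, so for a small `r > 0` we have `h ^ i a ≠ b` for `a, b` in the ball of radius `2 r`; `w x = cl01 (2 - dist x z₀ / r)`. The open sets `(h ^ n) ⁻¹' ball z₀ r`, `n : ℤ`, cover (`Dense.exists_mem_open`), finitely many suffice (`IsCompact.elim_finite_subcover`), say `|n| ≤ m`; apply this to `h ^ (-m) x`. See `exists_marker` in `Vale/Agent/P093H/Rok.lean` and `Hole.aper` in `P093H/Bas.lean`. -/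

open Filter Topology Set

noncomputable section

namespace Vale.Agent.P093

variable {X : Type} [MetricSpace X] [CompactSpace X] {h : X ≃ₜ X}

theorem aper_of_min [Infinite X] (hmin : ∀ x, Dense (range fun n : ℤ => (h ^ n) x)) (x : X)
    {n : ℤ} (hn : n ≠ 0) : (h ^ n) x ≠ x := by
  intro h1
  have h2 : Function.Periodic (fun m : ℤ => (h ^ m) x) n := fun m => by
    simp only [zpow_add, Homeomorph.mul_apply, h1]
  have h3 : Function.Periodic (fun m : ℤ => (h ^ m) x) |n| := by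
    rcases abs_choice n with e | e <;> rw [e]
    exacts [h2, h2.neg]
  have h4 : (range fun m : ℤ => (h ^ m) x).Finite := by
    rw [← h3.image_Ioc (abs_pos.2 hn) 0]
    exact (finite_Ioc _ _).image _
  have h5 := (hmin x).closure_eq
  rw [h4.isClosed.closure_eq] at h5
  rw [h5] at h4
  exact infinite_univ h4

theorem exists_bump [Infinite X] (hmin : ∀ x, Dense (range fun n : ℤ => (h ^ n) x)) (Q : ℕ) :
    ∃ (w : X → ℝ) (Q' : ℕ), Continuous w ∧ (∀ x, 0 ≤ w x) ∧ (∀ x, w x ≤ 1) ∧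
      (∀ x, w x ≠ 0 → ∀ i : ℕ, 0 < i → i < Q → w ((h ^ (i : ℤ)) x) = 0) ∧
      ∀ x, ∃ n < Q', w ((h ^ (-((n : ℕ) : ℤ))) x) = 1 := by
  obtain ⟨z₀⟩ : Nonempty X := inferInstance
  have h1 : ∀ᶠ a : X × X in 𝓝 (z₀, z₀), ∀ i ∈ Finset.Ioo 0 Q, (h ^ ((i : ℕ) : ℤ)) a.1 ≠ a.2 :=
    (Finset.eventually_all _).2 fun i hi => (isOpen_ne_fun
      ((Homeomorph.continuous _).comp continuous_fst) continuous_snd).mem_nhds
      (aper_of_min hmin z₀ (by have := (Finset.mem_Ioo.1 hi).1; omega))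
  obtain ⟨r, hr, hb⟩ := Metric.eventually_nhds_iff.1 h1
  have hw : ∀ x, cl01 (2 - 2 * dist x z₀ / r) ≠ 0 → dist x z₀ < r := fun x hx => by
    by_contra hn
    refine hx (max_eq_left (min_le_of_left_le ?_))
    rw [sub_nonpos, le_div_iff₀ hr]
    linarith
  obtain ⟨t, ht⟩ := isCompact_univ.elim_finite_subcover
    (fun n : ℤ => (h ^ n : X ≃ₜ X) ⁻¹' Metric.ball z₀ (r / 2))
    (fun n => Metric.isOpen_ball.preimage (Homeomorph.continuous _)) fun x _ => by
      obtain ⟨_, ⟨n, rfl⟩, hn⟩ := (hmin x).exists_mem_open Metric.isOpen_ball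
        ⟨z₀, Metric.mem_ball_self (half_pos hr)⟩
      exact mem_iUnion.2 ⟨n, hn⟩
  refine ⟨fun x => cl01 (2 - 2 * dist x z₀ / r), 2 * t.sup Int.natAbs + 1, by
    unfold cl01; fun_prop, fun x => le_max_left _ _,
    fun x => max_le zero_le_one (min_le_right _ _), fun x hx i h0 hi => by_contra fun hn => ?_,
    fun x => ?_⟩
  · exact hb (y := (x, (h ^ (i : ℤ)) x)) (by
      rw [Prod.dist_eq]
      exact max_lt (hw _ hx) (hw _ hn)) i (Finset.mem_Ioo.2 ⟨h0, hi⟩) rfl
  · obtain ⟨n, hn, hx⟩ := mem_iUnion₂.1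
      (ht (mem_univ ((h ^ (-((t.sup Int.natAbs : ℕ) : ℤ))) x)))
    have h2 : n.natAbs ≤ t.sup Int.natAbs := Finset.le_sup (f := Int.natAbs) hn
    refine ⟨((t.sup Int.natAbs : ℕ) - n).toNat, by omega, ?_⟩
    have e : -((((t.sup Int.natAbs : ℕ) - n).toNat : ℕ) : ℤ) = n + -((t.sup Int.natAbs : ℕ) : ℤ) := by
      omega
    rw [e, zpow_add, Homeomorph.mul_apply]
    have h3 : dist ((h ^ n) ((h ^ (-((t.sup Int.natAbs : ℕ) : ℤ))) x)) z₀ < r / 2 := hx
    refine (congrArg (max 0) (min_eq_right ?_)).trans (max_eq_right zero_le_one)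
    rw [le_sub_comm, div_le_iff₀ hr]
    linarith

end Vale.Agent.P093
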