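import Vale.Agent.P093C.Defs

/-! P093C UrpB (TASK). The bump function of the tower. Helper names start with `urb_`.
`sw h w P (h ^ i x) s = sw h w P x (s + i) - i`. A nonzero term `n` of `urpG x` has `sw x (-n) < 0` and `q < sw x s` for all `-n < s < q` (`Finset.prod_ne_zero_iff`); so at most one term is nonzero (`Finset.sum_eq_single`), this gives `urpG_le_one`.
`urpG_disj`: nonzero terms `n` at `x` and `n'` at `h ^ i x` give the places `s = -n`, `s' = i - n'`, different because `q ∣ n`, `q ∣ n'`. If `s < s'` then `q < sw x s' < i`; if `s' < s` then `q < sw x s - i` and `sw x s < 0`.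
`urpG_one`: let `s ≤ 0` be the largest integer with `s ≤ 0` and `sw x s ≤ 0` (`Int.exists_greatest_of_bdd`; the place `-n` from `hw1` has `sw = -n`, so `-Q' < s`). Then `w (h ^ s x) ≠ 0`, so `sw x s < -2 q` and `s < -2 q`. Put `j = (-s) % q`, `n = -s - j`; the term `n` of `urpG (h ^ (-j) x)` is `1`: for `s < s' < q - j` either `w (h ^ s' x) = 0` and `sw x s' = s' + P ≥ q + 1`, or `0 < sw x s'` (maximality, or `sw x s' ≥ s' > 0`) and so `2 q < sw x s'`. Use `Finset.single_le_sum` and `urpG_le_one`. -/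

open Filter Topology Set

noncomputable section

namespace Vale.Agent.P093

variable {X : Type} [TopologicalSpace X] {h : X ≃ₜ X} {w : X → ℝ} {P Q' q : ℕ}

theorem urb_nonneg (t : ℝ) : 0 ≤ cl01 t := le_max_left _ _

theorem urb_le_one (t : ℝ) : cl01 t ≤ 1 := max_le zero_le_one (min_le_right _ _)

theorem urb_pos {t : ℝ} (ht : cl01 t ≠ 0) : 0 < t := by
  by_contra hc
  apply ht
  unfold cl01
  exact max_eq_left ((min_le_left _ _).trans (not_lt.mp hc))

theorem urb_one {t : ℝ} (ht : 1 ≤ t) : cl01 t = 1 := by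
  unfold cl01
  rw [min_eq_right ht, max_eq_right zero_le_one]

theorem urb_cont : Continuous cl01 :=
  continuous_const.max (continuous_id.min continuous_const)

/-- One term of the sum. -/
def urb_t (h : X ≃ₜ X) (w : X → ℝ) (P q : ℕ) (x : X) (n : ℕ) : ℝ :=
  cl01 (-sw h w P x (-(n : ℤ))) * ∏ s ∈ Finset.Ioo (-(n : ℤ)) q, cl01 (sw h w P x s - q)

theorem urb_eq (x : X) :
    urpG h w P Q' q x = ∑ n ∈ (Finset.range Q').filter (q ∣ ·), urb_t h w P q x n := rfl

theorem urb_t_nonneg (x : X) (n : ℕ) : 0 ≤ urb_t h w P q x n :=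
  mul_nonneg (urb_nonneg _) (Finset.prod_nonneg fun _ _ => urb_nonneg _)

theorem urb_t_le (x : X) (n : ℕ) : urb_t h w P q x n ≤ 1 :=
  mul_le_one₀ (urb_le_one _) (Finset.prod_nonneg fun _ _ => urb_nonneg _)
    (Finset.prod_le_one (fun _ _ => urb_nonneg _) fun _ _ => urb_le_one _)

theorem urb_t_ne {x : X} {n : ℕ} (hn : urb_t h w P q x n ≠ 0) :
    sw h w P x (-(n : ℤ)) < 0 ∧ ∀ s : ℤ, -(n : ℤ) < s → s < q → (q : ℝ) < sw h w P x s := by
  obtain ⟨h1, h2⟩ := mul_ne_zero_iff.mp hn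
  refine ⟨by linarith [urb_pos h1], fun s a b => ?_⟩
  have := urb_pos (Finset.prod_ne_zero_iff.mp h2 s (Finset.mem_Ioo.mpr ⟨a, b⟩))
  linarith

theorem urb_ex {x : X} (hx : urpG h w P Q' q x ≠ 0) :
    ∃ n : ℕ, n < Q' ∧ q ∣ n ∧ urb_t h w P q x n ≠ 0 := by
  rw [urb_eq] at hx
  obtain ⟨n, hn, hne⟩ := Finset.exists_ne_zero_of_sum_ne_zero hx
  rw [Finset.mem_filter, Finset.mem_range] at hn
  exact ⟨n, hn.1, hn.2, hne⟩

theorem urb_uniq {x : X} {n m : ℕ} (hn : urb_t h w P q x n ≠ 0) (hm : urb_t h w P q x m ≠ 0)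
    (dm : q ∣ m) (hlt : n < m) : False := by
  have hq : 0 < q := Nat.pos_of_dvd_of_pos dm (by omega)
  have h1 := (urb_t_ne hn).1
  have h2 := (urb_t_ne hm).2 (-(n : ℤ)) (by omega) (by omega)
  have : (0 : ℝ) ≤ q := Nat.cast_nonneg q
  linarith

theorem sw_shift (x : X) (i s : ℤ) : sw h w P ((h ^ i) x) s = sw h w P x (s + i) - i := by
  unfold sw
  rw [zpow_add, Homeomorph.mul_apply]
  push_cast
  ring

theorem urpG_cont (hw : Continuous w) : Continuous (urpG h w P Q' q) := by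
  have hs : ∀ s : ℤ, Continuous fun x => sw h w P x s := fun s =>
    continuous_const.add (continuous_const.mul
      (continuous_const.sub (hw.comp (h ^ s).continuous)))
  unfold urpG
  refine continuous_finsetSum _ fun n _ => ?_
  exact (urb_cont.comp (hs _).neg).mul
    (continuous_finsetProd _ fun s _ => urb_cont.comp ((hs s).sub continuous_const))

theorem urpG_nonneg (x : X) : 0 ≤ urpG h w P Q' q x := by
  rw [urb_eq]
  exact Finset.sum_nonneg fun n _ => urb_t_nonneg x n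

theorem urpG_le_one (x : X) : urpG h w P Q' q x ≤ 1 := by
  by_cases hx : urpG h w P Q' q x = 0
  · rw [hx]; exact zero_le_one
  obtain ⟨n, -, dn, hn⟩ := urb_ex hx
  rw [urb_eq, Finset.sum_eq_single n]
  · exact urb_t_le x n
  · intro m hm hne
    by_contra hc
    rcases lt_or_gt_of_ne hne with hl | hl
    · exact urb_uniq hc hn dn hl
    · exact urb_uniq hn hc (Finset.mem_filter.mp hm).2 hl
  · intro hc
    by_contra _
    obtain ⟨m, hm, dm, hm'⟩ := urb_ex hx
    apply hc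
    rcases lt_trichotomy m n with hl | hl | hl
    · exact (urb_uniq hm' hn dn hl).elim
    · subst hl
      exact Finset.mem_filter.mpr ⟨Finset.mem_range.mpr hm, dm⟩
    · exact (urb_uniq hn hm' dm hl).elim

theorem urpG_disj {x : X} (hx : urpG h w P Q' q x ≠ 0) {i : ℕ} (h0 : 0 < i) (hi : i < q) :
    urpG h w P Q' q ((h ^ (i : ℤ)) x) = 0 := by
  by_contra hc
  obtain ⟨n, -, dn, hn⟩ := urb_ex hx
  obtain ⟨m, -, dm, hm⟩ := urb_ex hc
  obtain ⟨a1, a2⟩ := urb_t_ne hn
  obtain ⟨b1, b2⟩ := urb_t_ne hm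
  have hi' : (i : ℝ) < q := by exact_mod_cast hi
  have hi0 : (0 : ℝ) ≤ i := Nat.cast_nonneg i
  rw [sw_shift] at b1
  rcases lt_trichotomy (-(n : ℤ)) (-(m : ℤ) + i) with hl | hl | hl
  · have := a2 _ hl (by omega)
    push_cast at b1
    linarith
  · have hd : q ∣ i := by
      have e : m = n + i := by omega
      rw [e] at dm
      exact (Nat.dvd_add_right dn).mp dm
    exact absurd (Nat.le_of_dvd h0 hd) (by omega)
  · have := b2 (-(n : ℤ) - i) (by omega) (by omega)
    rw [sw_shift, sub_add_cancel] at this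
    push_cast at this
    linarith

theorem urpG_one (hq : 0 < q) (hP : Q' + q + 1 ≤ P) (w1 : ∀ x, w x ≤ 1)
    (hw1 : ∀ x, ∃ n < Q', w ((h ^ (-((n : ℕ) : ℤ))) x) = 1) {x : X}
    (hx : ∀ s : ℤ, w ((h ^ s) x) ≠ 0 → 2 * (q : ℝ) < |sw h w P x s|) :
    ∃ j < q, urpG h w P Q' q ((h ^ (-((j : ℕ) : ℤ))) x) = 1 := by
  have hge : ∀ s : ℤ, (s : ℝ) ≤ sw h w P x s := fun s => by
    have := mul_nonneg (Nat.cast_nonneg (α := ℝ) P) (sub_nonneg.mpr (w1 ((h ^ s) x)))
    unfold sw
    linarith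
  have hz : ∀ s : ℤ, -(Q' : ℤ) < s → w ((h ^ s) x) = 0 → (q : ℝ) + 1 ≤ sw h w P x s := by
    intro s hs h0
    have e : (q : ℤ) + 1 ≤ s + P := by omega
    have e' : (q : ℝ) + 1 ≤ s + P := by exact_mod_cast e
    unfold sw
    rw [h0]
    linarith
  obtain ⟨n, hn, hn1⟩ := hw1 x
  have hn2 : sw h w P x (-(n : ℤ)) ≤ 0 := by
    unfold sw
    rw [hn1]
    have : (0 : ℝ) ≤ n := Nat.cast_nonneg n
    push_cast
    linarith
  obtain ⟨s, ⟨s0, s1⟩, smax⟩ := Int.exists_greatest_of_bdd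
    (P := fun s : ℤ => s ≤ 0 ∧ sw h w P x s ≤ 0) ⟨0, fun z hz => hz.1⟩
    ⟨-(n : ℤ), by omega, hn2⟩
  have sQ : -(Q' : ℤ) < s := by
    have := smax (-(n : ℤ)) ⟨by omega, hn2⟩
    omega
  have q1 : (1 : ℝ) ≤ q := by exact_mod_cast hq
  have s2 : sw h w P x s < -(2 * (q : ℝ)) := by
    have hne : w ((h ^ s) x) ≠ 0 := fun h0 => by linarith [hz s sQ h0]
    have := hx s hne
    rw [abs_of_nonpos s1] at this
    linarith
  obtain ⟨a, ha⟩ : ∃ a : ℕ, s = -(a : ℤ) := ⟨(-s).toNat, by omega⟩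
  have hj : a % q < q := Nat.mod_lt _ hq
  have hm : q * (a / q) + a % q = a := Nat.div_add_mod a q
  generalize a % q = j at hj hm
  have hd : q ∣ q * (a / q) := dvd_mul_right _ _
  generalize q * (a / q) = m at hm hd
  have hj' : (j : ℝ) < q := by exact_mod_cast hj
  have hj0 : (0 : ℝ) ≤ j := Nat.cast_nonneg j
  refine ⟨j, hj, le_antisymm (urpG_le_one _) ?_⟩
  have ht : urb_t h w P q ((h ^ (-(j : ℤ))) x) m = 1 := by
    unfold urb_t
    rw [urb_one, Finset.prod_eq_one, mul_one]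
    · intro t ht
      rw [Finset.mem_Ioo] at ht
      apply urb_one
      rw [sw_shift]
      push_cast
      by_cases h0 : w ((h ^ (t + -(j : ℤ))) x) = 0
      · linarith [hz _ (by omega) h0]
      · have hp : 0 < sw h w P x (t + -(j : ℤ)) := by
          by_contra hc
          have hc' := not_lt.mp hc
          have e : ((t + -(j : ℤ) : ℤ) : ℝ) ≤ 0 := (hge _).trans hc'
          have e' : t + -(j : ℤ) ≤ 0 := by exact_mod_cast e
          have := smax _ ⟨e', hc'⟩
          omega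
        have := hx _ h0
        rw [abs_of_pos hp] at this
        linarith
    · rw [sw_shift, show -(m : ℤ) + -(j : ℤ) = s by omega]
      push_cast
      linarith
  rw [urb_eq, ← ht]
  exact Finset.single_le_sum (f := urb_t h w P q ((h ^ (-(j : ℤ))) x))
    (fun k _ => urb_t_nonneg _ k)
    (Finset.mem_filter.mpr ⟨Finset.mem_range.mpr (by omega), hd⟩)

end Vale.Agent.P093
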