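import Vale.Agent.P093C.UrpA
import Vale.Agent.P093C.UrpB
import Vale.Agent.P093H.Rok

/-! P093C UrpC (TASK). Open towers for minimal homeomorphisms. Helper names start with `urc_`. Compare `exists_tower` in `Vale/Agent/P093H/Rok.lean` (its counting helpers may be imported).
Take `Q > 0` with `4 q + 1 ≤ ε Q`, `w`, `Q'` from `exists_bump`, `P = Q' + q + 1`, `g = urpG h w P Q' q`, `E = P + 2 q`. For a time `i` in `[E, E + N)` either some `s` has `w (h ^ s x) ≠ 0` and `|sw x s - i| ≤ 2 q` (`sw_shift`; then `0 ≤ s < N + 2 E` because `s ≤ sw x s ≤ s + P`, and for fixed `s` there are at most `4 q + 1` such integers `i`: they lie in `Finset.Icc ⌈sw - 2 q⌉ ⌊sw + 2 q⌋`), or `urpG_one` gives `j < q` with `g (h ^ (i - j) x) = 1`.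
So `N ≤ q * cnt {g = 1} x (N + E) + (4 q + 1) * cnt {w ≠ 0} x (N + 2 E)` (`Finset.card_biUnion_le` or `Finset.card_le_mul_card_image_of_maps_to`), `cnt _ x (N + E) ≤ cnt _ x N + E` (`cnt_add`, `cnt_le`), `Q * cnt {w ≠ 0} x M ≤ M + Q` (`n ↦ n / Q` is injective on the visits). -/

open Filter Topology Set

noncomputable section

namespace Vale.Agent.P093

theorem urc_card (c : ℝ) (q N : ℕ) :
    ((Finset.range N).filter fun n : ℕ => |c - n| ≤ 2 * (q : ℝ)).card ≤ 4 * q + 1 := by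
  refine (Finset.card_le_card (t := Finset.Icc ⌈c - 2 * q⌉₊ (⌈c - 2 * q⌉₊ + 4 * q))
    fun n hn => ?_).trans (by rw [Nat.card_Icc]; omega)
  obtain ⟨h1, h2⟩ := abs_le.1 (Finset.mem_filter.1 hn).2
  have h3 := Nat.le_ceil (c - 2 * q)
  refine Finset.mem_Icc.2 ⟨Nat.ceil_le.2 (by linarith), (Nat.cast_le (α := ℝ)).1 ?_⟩
  push_cast
  linarith

theorem urc_cover {X : Type} [TopologicalSpace X] {h : X ≃ₜ X} {w : X → ℝ} {Y W : Set X} {P q : ℕ}
    (w0 : ∀ x, 0 ≤ w x) (w1 : ∀ x, w x ≤ 1) (hW : ∀ x, w x ≠ 0 → x ∈ W)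
    (hY : ∀ x, (∀ s : ℤ, w ((h ^ s) x) ≠ 0 → 2 * (q : ℝ) < |sw h w P x s|) →
      ∃ j < q, (h ^ (-((j : ℕ) : ℤ))) x ∈ Y) (x : X) (N : ℕ) :
    N ≤ (4 * q + 1) * cnt h W ((h ^ (-((P + 2 * q : ℕ) : ℤ))) x)
      (N + 2 * (P + 2 * q)) + q * (q + cnt h Y x N) := by
  classical
  have h1 : Finset.range N ⊆ ((Finset.range (N + 2 * (P + 2 * q))).filter fun s : ℕ =>
      (h ^ (s : ℤ)) ((h ^ (-((P + 2 * q : ℕ) : ℤ))) x) ∈ W).biUnion
        (fun s : ℕ => (Finset.range N).filter fun n : ℕ =>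
          |sw h w P x (s - ((P + 2 * q : ℕ) : ℤ)) - n| ≤ 2 * (q : ℝ)) ∪
      (Finset.range q).biUnion fun i : ℕ =>
        (Finset.range N).filter fun n : ℕ => (h ^ (n : ℤ)) ((h ^ (-(i : ℤ))) x) ∈ Y := by
    intro n hn
    simp only [Finset.mem_union, Finset.mem_biUnion, Finset.mem_filter, hrk_add]
    by_cases hx : ∀ s : ℤ, w ((h ^ s) ((h ^ (n : ℤ)) x)) ≠ 0 →
        2 * (q : ℝ) < |sw h w P ((h ^ (n : ℤ)) x) s|
    · obtain ⟨j, hj, e⟩ := hY _ hx
      rw [hrk_add, add_comm] at e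
      exact Or.inr ⟨j, Finset.mem_range.2 hj, hn, e⟩
    · push Not at hx
      obtain ⟨s, h2, h3⟩ := hx
      rw [hrk_add] at h2
      rw [sw_shift, Int.cast_natCast] at h3
      obtain ⟨h4, h5⟩ := abs_le.1 h3
      have h6 : 0 ≤ (P : ℝ) * (1 - w ((h ^ (s + n)) x)) :=
        mul_nonneg (Nat.cast_nonneg _) (sub_nonneg.2 (w1 _))
      have h7 : (P : ℝ) * (1 - w ((h ^ (s + n)) x)) ≤ P :=
        mul_le_of_le_one_right (Nat.cast_nonneg _) (sub_le_self _ (w0 _))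
      rw [sw] at h4 h5
      push_cast at h4 h5
      have h8 : s ≤ 2 * (q : ℤ) := (Int.cast_le (R := ℝ)).1 (by push_cast; linarith)
      have h9 : -(2 * (q : ℤ)) - P ≤ s := (Int.cast_le (R := ℝ)).1 (by push_cast; linarith)
      have h10 := Finset.mem_range.1 hn
      obtain ⟨s', hs'⟩ := Int.eq_ofNat_of_zero_le (a := s + n + ((P + 2 * q : ℕ) : ℤ)) (by omega)
      refine Or.inl ⟨s', ⟨Finset.mem_range.2 (by omega), ?_⟩, hn, ?_⟩
      · rw [← hs', add_neg_cancel_right]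
        exact hW _ h2
      · rw [← hs', add_sub_cancel_right]
        exact h3
  have h2 := (Finset.card_le_card h1).trans ((Finset.card_union_le _ _).trans
    (add_le_add Finset.card_biUnion_le Finset.card_biUnion_le))
  rw [Finset.card_range] at h2
  refine h2.trans (add_le_add ((Finset.sum_le_card_nsmul _ _ (4 * q + 1)
    fun s _ => urc_card _ q N).trans (by rw [smul_eq_mul, mul_comm]; rfl))
    ((Finset.sum_le_card_nsmul _ _ (q + cnt h Y x N)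
    fun i hi => ?_).trans (by rw [Finset.card_range, smul_eq_mul])))
  have e1 := cnt_add (σ := h) (F := Y) ((h ^ (-(i : ℤ))) x) N i
  have e2 := cnt_add (σ := h) (F := Y) ((h ^ (-(i : ℤ))) x) i N
  have e3 := cnt_le (σ := h) (F := Y) ((h ^ (-(i : ℤ))) x) i
  rw [hrk_add, add_neg_cancel, zpow_zero, add_comm i N, e1, Homeomorph.one_apply] at e2
  have e4 := Finset.mem_range.1 hi
  change cnt h Y ((h ^ (-(i : ℤ))) x) N ≤ _
  omega

theorem exists_urp {X : Type} [MetricSpace X] [CompactSpace X] [Infinite X] {h : X ≃ₜ X}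
    (hmin : ∀ x, Dense (range fun n : ℤ => (h ^ n) x)) {q : ℕ} (hq : 0 < q) {ε : ℝ}
    (hε : 0 < ε) : ∃ g, Urp h q ε g := by
  obtain ⟨Q, hQ⟩ := exists_nat_gt ((4 * q + 1) / ε)
  have hQ0 : (0 : ℝ) < Q := lt_trans (by positivity) hQ
  rw [div_lt_iff₀ hε] at hQ
  obtain ⟨w, Q', hw, w0, w1, hsp, hcov⟩ := exists_bump hmin Q
  refine ⟨urpG h w (Q' + q + 1) Q' q, urpG_cont hw, urpG_nonneg, urpG_le_one,
    fun x hx i h0 hi => urpG_disj hx h0 hi,
    q * q + ε * (2 * ((Q' + q + 1 + 2 * q : ℕ) : ℝ) + Q), fun x N => ?_⟩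
  have h1 := (Nat.cast_le (α := ℝ)).2 (urc_cover (Y := {x | urpG h w (Q' + q + 1) Q' q x = 1})
    (W := {x | w x ≠ 0}) w0 w1 (fun _ hx => hx) (fun x hx => urpG_one hq le_rfl w1 hcov hx) x N)
  have h2 := (Nat.cast_le (α := ℝ)).2 (hrk_sparse (σ := h) (Y := {x | w x ≠ 0})
    (by exact_mod_cast hQ0) (fun z hz i h0 hi h3 => h3 (hsp z hz i h0 hi))
    ((h ^ (-((Q' + q + 1 + 2 * q : ℕ) : ℤ))) x) (N + 2 * (Q' + q + 1 + 2 * q)))
  generalize cnt h {x | w x ≠ 0} _ _ = a at h1 h2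
  have h3 := mul_le_mul_of_nonneg_left h2 hε.le
  have h4 := mul_le_mul_of_nonneg_right hQ.le (Nat.cast_nonneg (α := ℝ) a)
  push_cast at h1 h3 ⊢
  linarith

end Vale.Agent.P093
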